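import Vale.Agent.P329.H839.Dyn

/-!
Prefix sums, the predicate `R` (marks in given zones), and the descent of `R` from a larger
algebra to a smaller one.
-/

open Filter

namespace Vale.Agent.P329.H839

variable {α : Type} {p : ℕ}

/-- Prefix sums. -/
def N (f : List α → ZMod p) : List α → ZMod p
  | [] => 0
  | x :: v => N f v + f (x :: v)

theorem N_add (f g : List α → ZMod p) (v : List α) :
    N (fun v => f v + g v) v = N f v + N g v := by
  induction v with
  | nil => simp [N]
  | cons x v ih => simp only [N, ih]; ring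

theorem N_smul (c : ZMod p) (f : List α → ZMod p) (v : List α) :
    N (fun v => c * f v) v = c * N f v := by
  induction v with
  | nil => simp [N]
  | cons x v ih => simp only [N, ih]; ring

theorem N_zero (v : List α) : N (fun _ => (0 : ZMod p)) v = 0 := by
  induction v with
  | nil => simp [N]
  | cons x v ih => simp only [N, ih, add_zero]

theorem N_sum {ι : Type} (s : Finset ι) (f : ι → List α → ZMod p) (v : List α) :
    N (fun v => ∑ i ∈ s, f i v) v = ∑ i ∈ s, N (f i) v := by
  induction v with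
  | nil => simp [N]
  | cons x v ih => simp only [N, ih, Finset.sum_add_distrib]

theorem N_congr {f g : List α → ZMod p} (h : ∀ v, v ≠ [] → f v = g v) (v : List α) :
    N f v = N g v := by
  induction v with
  | nil => rfl
  | cons x v ih => rw [N, N, ih, h _ (List.cons_ne_nil _ _)]

theorem N_tail (f : List α → ZMod p) (h0 : f [] = 0) (v : List α) :
    N f v.tail = N f v - f v := by
  cases v with
  | nil => simp [N, h0]
  | cons x v => simp [N]

theorem N_drop (f : List α → ZMod p) (h0 : f [] = 0) (i : ℕ) (v : List α) :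
    N f (v.drop i) = N f v - ∑ k ∈ Finset.range i, f (v.drop k) := by
  induction i with
  | zero => simp
  | succ i ih =>
    have : v.drop (i + 1) = (v.drop i).tail := by simp
    rw [this, N_tail f h0, ih, Finset.sum_range_succ]
    ring

/-- The two parts of two zones agree over an algebra. -/
def UEq (L : Set (List α → ZMod p)) (Z Z' : Zone α) : Prop :=
  ∀ f ∈ L, (∀ᶠ v in (Z.U : Filter (List α)), f v = 0) ↔ ∀ᶠ v in (Z'.U : Filter (List α)), f v = 0

def MEq (L : Set (List α → ZMod p)) (Z Z' : Zone α) : Prop :=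
  ∀ f ∈ L, (∀ᶠ v in Z.M, f v = 0) ↔ ∀ᶠ v in Z'.M, f v = 0

def Eqv (L : Set (List α → ZMod p)) (Z Z' : Zone α) : Prop := UEq L Z Z' ∧ MEq L Z Z'

theorem UEq.symm {L : Set (List α → ZMod p)} {Z Z' : Zone α} (h : UEq L Z Z') : UEq L Z' Z :=
  fun f hf => (h f hf).symm

theorem UEq.trans {L : Set (List α → ZMod p)} {Z Z' Z'' : Zone α} (h : UEq L Z Z')
    (h' : UEq L Z' Z'') : UEq L Z Z'' := fun f hf => (h f hf).trans (h' f hf)

theorem Eqv.refl (L : Set (List α → ZMod p)) (Z : Zone α) : Eqv L Z Z :=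
  ⟨fun _ _ => Iff.rfl, fun _ _ => Iff.rfl⟩

theorem Eqv.symm {L : Set (List α → ZMod p)} {Z Z' : Zone α} (h : Eqv L Z Z') : Eqv L Z' Z :=
  ⟨h.1.symm, fun f hf => (h.2 f hf).symm⟩

theorem Eqv.trans {L : Set (List α → ZMod p)} {Z Z' Z'' : Zone α} (h : Eqv L Z Z')
    (h' : Eqv L Z' Z'') : Eqv L Z Z'' := ⟨h.1.trans h'.1, fun f hf => (h.2 f hf).trans (h'.2 f hf)⟩

theorem Eqv.mono {L L' : Set (List α → ZMod p)} (hLL : L ⊆ L') {Z Z' : Zone α}
    (h : Eqv L' Z Z') : Eqv L Z Z' :=
  ⟨fun f hf => h.1 f (hLL hf), fun f hf => h.2 f (hLL hf)⟩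

/-- Marks in the zones `Z` (the first zone belongs to the innermost mark). -/
def R (Cap : Set (List α → ZMod p)) (L : Set (List α → ZMod p)) :
    List (Zone α) → (List α → ZMod p) → Prop
  | [], G => G ∈ Cap
  | Z :: Zs, G => ∃ a ∈ L, (∀ᶠ v in (Z.U : Filter (List α)), a v ≠ 0) ∧
      ∀ k ∈ L, (∀ v, a v = 0 → k v = 0) → R Cap L Zs (N fun v => k v * G v.tail)

variable {Cap L L' : Set (List α → ZMod p)}

section R

variable [hp : Fact p.Prime]

theorem ne_iff (hL : Alg L) {a : List α → ZMod p} (ha : a ∈ L) :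
    ∃ b ∈ L, ∀ v, b v = 0 ↔ a v ≠ 0 := by
  refine ⟨fun v => 1 - a v ^ (p - 1), hL.sub (hL.const 1) (hL.pow ha _), fun v => ?_⟩
  beta_reduce
  by_cases h : a v = 0
  · rw [h, zero_pow (Nat.sub_ne_zero_of_lt hp.out.one_lt)]
    simp
  · rw [ZMod.pow_card_sub_one_eq_one h]
    simp [h]

theorem UEq.ne (hL : Alg L) {Z Z' : Zone α} (h : UEq L Z Z') {a : List α → ZMod p}
    (ha : a ∈ L) : (∀ᶠ v in (Z.U : Filter (List α)), a v ≠ 0) ↔
      ∀ᶠ v in (Z'.U : Filter (List α)), a v ≠ 0 := by
  obtain ⟨b, hb, h1⟩ := ne_iff hL ha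
  simp_rw [← h1]
  exact h b hb

theorem MEq.ne (hL : Alg L) {Z Z' : Zone α} (h : MEq L Z Z') {a : List α → ZMod p}
    (ha : a ∈ L) : (∀ᶠ v in Z.M, a v ≠ 0) ↔ ∀ᶠ v in Z'.M, a v ≠ 0 := by
  obtain ⟨b, hb, h1⟩ := ne_iff hL ha
  simp_rw [← h1]
  exact h b hb

theorem R.congr (hL : Alg L) : ∀ {Zs Zs' : List (Zone α)}, List.Forall₂ (UEq L) Zs Zs' →
    ∀ {G : List α → ZMod p}, R Cap L Zs G → R Cap L Zs' G := by
  intro Zs Zs' h
  induction h with
  | nil => intro G hG; exact hG
  | cons h1 h2 ih =>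
    rintro G ⟨a, ha, h3, h4⟩
    exact ⟨a, ha, (h1.ne hL ha).mp h3, fun k hk hk' => ih (h4 k hk hk')⟩

theorem R.ext {Zs : List (Zone α)} {G G' : List α → ZMod p} (h : ∀ v, G v = G' v)
    (hR : R Cap L Zs G) : R Cap L Zs G' := by
  rwa [show G' = G from (funext h).symm]

variable (hC0 : (fun _ => (0 : ZMod p)) ∈ Cap)
  (hCa : ∀ f ∈ Cap, ∀ g ∈ Cap, (fun v : List α => f v + g v) ∈ Cap)

include hC0 in
theorem R.zero (hL : Alg L) : ∀ Zs : List (Zone α), R Cap L Zs (fun _ => 0) := by
  intro Zs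
  induction Zs with
  | nil => exact hC0
  | cons Z Zs ih =>
    refine ⟨fun _ => 1, hL.const 1, Eventually.of_forall fun _ => one_ne_zero, fun k _ _ => ?_⟩
    exact R.ext (fun v => by
      rw [N_congr (g := fun _ => 0) (fun _ _ => by simp) v, N_zero]) ih

include hCa in
theorem R.add (hL : Alg L) : ∀ {Zs : List (Zone α)} {G G' : List α → ZMod p},
    R Cap L Zs G → R Cap L Zs G' → R Cap L Zs (fun v => G v + G' v) := by
  intro Zs
  induction Zs with
  | nil => intro G G' h h'; exact hCa _ h _ h'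
  | cons Z Zs ih =>
    rintro G G' ⟨a, ha, h1, h2⟩ ⟨a', ha', h1', h2'⟩
    refine ⟨fun v => a v * a' v, hL.mul ha ha', ?_, fun k hk hk' => ?_⟩
    · filter_upwards [h1, h1'] with v h3 h4
      exact mul_ne_zero h3 h4
    · have h3 := h2 k hk fun v hv => hk' v (by beta_reduce; rw [hv, zero_mul])
      have h4 := h2' k hk fun v hv => hk' v (by beta_reduce; rw [hv, mul_zero])
      refine R.ext (fun v => ?_) (ih h3 h4)
      rw [← N_add]
      exact N_congr (fun _ _ => by ring) v

include hC0 hCa in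
theorem R.smul (hL : Alg L) {Zs : List (Zone α)} {G : List α → ZMod p}
    (h : R Cap L Zs G) (c : ZMod p) : R Cap L Zs (fun v => c * G v) := by
  have : NeZero p := ⟨hp.out.ne_zero⟩
  have key : ∀ n : ℕ, R Cap L Zs (fun v => (n : ZMod p) * G v) := by
    intro n
    induction n with
    | zero => exact R.ext (fun v => by simp) (R.zero hC0 hL Zs)
    | succ n ih => exact R.ext (fun v => by push_cast; ring) (R.add hCa hL ih h)
  exact R.ext (fun v => by rw [ZMod.natCast_zmod_val]) (key c.val)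

include hC0 hCa in
theorem R.sum (hL : Alg L) {Zs : List (Zone α)} {ι : Type} (s : Finset ι)
    {G : ι → List α → ZMod p} (h : ∀ i ∈ s, R Cap L Zs (G i)) :
    R Cap L Zs (fun v => ∑ i ∈ s, G i v) := by
  classical
  induction s using Finset.induction_on with
  | empty => exact R.ext (fun v => by simp) (R.zero hC0 hL Zs)
  | insert a s ha ih =>
    refine R.ext (fun v => ?_) (R.add hCa hL (h a (Finset.mem_insert_self _ _))
      (ih fun i hi => h i (Finset.mem_insert_of_mem hi)))
    rw [Finset.sum_insert ha]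

/-- Every ultrafilter which agrees with a zone over `L` carries a zone which agrees over `L`. -/
theorem lift (hL : Alg L) (hlen : ∀ n : ℕ, ind p {v : List α | n ≤ v.length} ∈ L) (Z : Zone α)
    (V : Ultrafilter (List α)) (hV : ∀ f ∈ L, (∀ᶠ v in (Z.U : Filter (List α)), f v = 0) →
      ∀ᶠ v in (V : Filter (List α)), f v = 0) : ∃ Z' : Zone α, Z'.U = V ∧ Eqv L Z Z' := by
  classical
  have hne := Z.ne
  have hV' : ∀ f ∈ L, (∀ᶠ v in (Z.U : Filter (List α)), f v ≠ 0) →
      ∀ᶠ v in (V : Filter (List α)), f v ≠ 0 := by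
    intro f hf h
    obtain ⟨b, hb, h1⟩ := ne_iff hL hf
    simp_rw [← h1] at h ⊢
    exact hV b hb h
  have hV'' : ∀ f ∈ L, (∀ᶠ v in (V : Filter (List α)), f v ≠ 0) →
      ∀ᶠ v in (Z.U : Filter (List α)), f v ≠ 0 := by
    intro f hf h
    by_contra hcon
    rw [← Ultrafilter.frequently_iff_eventually, not_frequently] at hcon
    have h1 := hV f hf (hcon.mono fun v hv => not_not.mp hv)
    obtain ⟨v, h2, h3⟩ := (h.and h1).exists
    exact h2 h3
  have long : ∀ n : ℕ, ∀ᶠ v in (V : Filter (List α)), n ≤ v.length := by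
    intro n
    have h1 := hV' _ (hlen n) (by
      filter_upwards [Z.long n] with v hv
      simp [ind, hv])
    filter_upwards [h1] with v hv
    by_contra hcon
    apply hv
    simp only [ind, Set.mem_ofPred_eq]
    rw [if_neg hcon]
  let G1 : Filter (List α) :=
    { sets := {A | ∃ f ∈ L, (∀ᶠ v in Z.M, f v = 0) ∧ ∀ v, f v = 0 → v ∈ A}
      univ_sets := ⟨fun _ => 0, hL.const 0, Eventually.of_forall fun _ => rfl, fun _ _ => trivial⟩
      sets_of_superset := by
        rintro A B ⟨f, hf, h1, h2⟩ hAB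
        exact ⟨f, hf, h1, fun v hv => hAB (h2 v hv)⟩
      inter_sets := by
        rintro A B ⟨f, hf, h1, h2⟩ ⟨g, hg, h1', h2'⟩
        have key : ∀ v, f v ^ (p - 1) + g v ^ (p - 1) - f v ^ (p - 1) * g v ^ (p - 1) = 0 →
            f v = 0 ∧ g v = 0 := by
          intro v hv
          by_cases h3 : f v = 0
          · by_cases h4 : g v = 0
            · exact ⟨h3, h4⟩
            · rw [h3, zero_pow (Nat.sub_ne_zero_of_lt hp.out.one_lt),
                ZMod.pow_card_sub_one_eq_one h4] at hv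
              simp at hv
          · rw [ZMod.pow_card_sub_one_eq_one h3] at hv
            simp at hv
        refine ⟨fun v => f v ^ (p - 1) + g v ^ (p - 1) - f v ^ (p - 1) * g v ^ (p - 1),
          hL.sub (hL.add (hL.pow hf _) (hL.pow hg _)) (hL.mul (hL.pow hf _) (hL.pow hg _)),
          ?_, fun v hv => ⟨h2 v (key v hv).1, h2' v (key v hv).2⟩⟩
        filter_upwards [h1, h1'] with v h3 h4
        rw [h3, h4, zero_pow (Nat.sub_ne_zero_of_lt hp.out.one_lt)]
        ring }
  have hG1 : ∀ f ∈ L, (∀ᶠ v in Z.M, f v = 0) → ∀ᶠ v in G1, f v = 0 :=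
    fun f hf h => ⟨f, hf, h, fun v hv => hv⟩
  let G2 : Filter (List α) := ⨆ i : ℕ, Filter.map (List.drop i) (V : Filter (List α))
  have hG2 : ∀ O : Set (List α), O ∈ G2 ↔ ∀ i : ℕ, ∀ᶠ v in (V : Filter (List α)), v.drop i ∈ O := by
    intro O
    simp only [G2, mem_iSup, Filter.mem_map]
    rfl
  obtain ⟨Z', h1, h2⟩ := exists_zone V long (G1 ⊓ G2) (by
    rw [inf_neBot_iff]
    rintro A ⟨f, hf, h1, h2⟩ O hO
    by_contra hcon
    rw [Set.not_nonempty_iff_eq_empty] at hcon
    have h3 : {v | f v ≠ 0} ∈ Z.M := by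
      apply Z.adh
      intro i
      have h4 : ∀ᶠ v in (V : Filter (List α)), f (v.drop i) ≠ 0 := by
        filter_upwards [(hG2 O).mp hO i] with v hv h5
        have : v.drop i ∈ A ∩ O := ⟨h2 _ h5, hv⟩
        rw [hcon] at this
        exact this
      exact hV'' _ (hL.drop hf i) h4
    obtain ⟨v, h4, h5⟩ := (h1.and h3).exists
    exact h5 h4) (by
    refine tendsto_inf.mpr ⟨?_, ?_⟩
    · refine Tendsto.mono_left ?_ inf_le_left
      rintro A ⟨f, hf, h1, h2⟩
      exact ⟨fun v => f v.tail, hL.tl hf, Z.ev_tail h1, fun v hv => h2 _ hv⟩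
    · refine Tendsto.mono_left ?_ inf_le_right
      intro O hO
      rw [Filter.mem_map, hG2]
      intro i
      filter_upwards [(hG2 O).mp hO (i + 1)] with v hv
      simpa using hv) (by
    intro A hA
    exact mem_inf_of_right ((hG2 A).mpr hA))
  refine ⟨Z', h1, ?_, ?_⟩
  · intro f hf
    rw [h1]
    refine ⟨hV f hf, fun h => ?_⟩
    by_contra hcon
    rw [← Ultrafilter.frequently_iff_eventually, not_frequently] at hcon
    obtain ⟨v, h3, h4⟩ := ((hV' f hf hcon).and h).exists
    exact h3 h4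
  · intro f hf
    refine ⟨fun h => h2 (mem_inf_of_left (hG1 f hf h)), fun h => ?_⟩
    by_contra hcon
    rw [not_eventually] at hcon
    obtain ⟨n, hn⟩ := Z.hit (A := {v | f v ≠ 0}) hcon
    have hF : (fun v : List α => ∏ i ∈ Finset.range (n + 1), (1 - f (v.drop i) ^ (p - 1))) ∈ L :=
      hL.prod _ fun i _ => hL.sub (hL.const 1) (hL.pow (hL.drop hf i) _)
    have h3 : ∀ᶠ v in Z.M, ∏ i ∈ Finset.range (n + 1), (1 - f (v.drop i) ^ (p - 1)) = 0 := by
      filter_upwards [hn] with v hv
      obtain ⟨i, hi, h4⟩ := hv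
      refine Finset.prod_eq_zero (Finset.mem_range.mpr (by omega : i < n + 1)) ?_
      rw [ZMod.pow_card_sub_one_eq_one h4, sub_self]
    have h4 : ∀ᶠ v in Z'.M, ∏ i ∈ Finset.range (n + 1), (1 - f (v.drop i) ^ (p - 1)) = 0 :=
      h2 (mem_inf_of_left (hG1 _ hF h3))
    have hne' := Z'.ne
    obtain ⟨v, h5, h6⟩ := (h4.and (Z'.ev_drop h n)).exists
    rw [Finset.prod_eq_zero_iff] at h5
    obtain ⟨i, hi, h7⟩ := h5
    rw [h6 i (by have := Finset.mem_range.mp hi; omega),
      zero_pow (Nat.sub_ne_zero_of_lt hp.out.one_lt)] at h7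
    simp at h7

/-- Finitely many classes over the class of `Z`, given by the value of `X`. -/
def Fin1 (L L' : Set (List α → ZMod p)) (X : List α → ZMod p) (Z : Zone α) : Prop :=
  ∀ Z' : Zone α, Eqv L Z Z' → ∀ f ∈ L', ∃ c ∈ L, ∃ a ∈ L,
    (∀ᶠ v in (Z'.U : Filter (List α)), c v ≠ 0) ∧
    ∀ s : ZMod p, (∀ᶠ v in (Z'.U : Filter (List α)), X v = s) → ∀ v, X v = s → c v ≠ 0 →
      f v = a v

theorem Fin1.ueq (hL : Alg L) {X : List α → ZMod p} {Z : Zone α}
    (hZ : Fin1 L L' X Z) {Z' Z'' : Zone α} (h' : Eqv L Z Z') (h'' : Eqv L Z Z'') {s : ZMod p}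
    (hs' : ∀ᶠ v in (Z'.U : Filter (List α)), X v = s)
    (hs'' : ∀ᶠ v in (Z''.U : Filter (List α)), X v = s) : UEq L' Z' Z'' := by
  have key : ∀ Z1 Z2 : Zone α, Eqv L Z Z1 → Eqv L Z Z2 →
      (∀ᶠ v in (Z1.U : Filter (List α)), X v = s) →
      (∀ᶠ v in (Z2.U : Filter (List α)), X v = s) → ∀ f ∈ L',
      (∀ᶠ v in (Z1.U : Filter (List α)), f v = 0) → ∀ᶠ v in (Z2.U : Filter (List α)), f v = 0 := by
    intro Z1 Z2 h1 h2 hs1 hs2 f hf h
    obtain ⟨c, hc, a, ha, h3, h4⟩ := hZ Z1 h1 f hf
    have h5 : ∀ᶠ v in (Z1.U : Filter (List α)), a v = 0 := by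
      filter_upwards [h, h3, hs1] with v h6 h7 h8
      rw [← h4 s hs1 v h8 h7, h6]
    have h12 : UEq L Z1 Z2 := (h1.symm.trans h2).1
    filter_upwards [(h12 a ha).mp h5, (h12.ne hL hc).mp h3, hs2] with v h6 h7 h8
    rw [h4 s hs1 v h8 h7, h6]
  exact fun f hf => ⟨key Z' Z'' h' h'' hs' hs'' f hf, key Z'' Z' h'' h' hs'' hs' f hf⟩

omit hp in
theorem ult_val [NeZero p] (U : Ultrafilter (List α)) (X : List α → ZMod p) :
    ∃ s, ∀ᶠ v in (U : Filter (List α)), X v = s := by
  by_contra hcon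
  push Not at hcon
  have h1 : ∀ s ∈ (Finset.univ : Finset (ZMod p)), ∀ᶠ v in (U : Filter (List α)), X v ≠ s := by
    intro s _
    exact hcon s
  obtain ⟨v, hv⟩ := ((Filter.eventually_all_finset _).mpr h1).exists
  exact hv (X v) (Finset.mem_univ _) rfl

theorem reps (hL : Alg L) {X : List α → ZMod p} : ∀ Zs : List (Zone α),
    (∀ Z ∈ Zs, Fin1 L L' X Z) → ∃ (ι : Type) (_ : Finite ι) (S : ι → List (Zone α)),
      (∀ i, List.Forall₂ (Eqv L) Zs (S i)) ∧ ∀ Zs', List.Forall₂ (Eqv L) Zs Zs' →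
        ∃ i, List.Forall₂ (UEq L') (S i) Zs' := by
  have : NeZero p := ⟨hp.out.ne_zero⟩
  intro Zs
  induction Zs with
  | nil =>
    intro _
    refine ⟨Unit, inferInstance, fun _ => [], fun _ => List.Forall₂.nil, fun Zs' h => ⟨(), ?_⟩⟩
    cases h
    exact List.Forall₂.nil
  | cons Z Zs ih =>
    intro hF
    obtain ⟨ι, hι, S, h1, h2⟩ := ih fun Z' hZ' => hF Z' (List.mem_cons_of_mem _ hZ')
    let P : ZMod p → Prop := fun s => ∃ Z', Eqv L Z Z' ∧
      ∀ᶠ v in (Z'.U : Filter (List α)), X v = s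
    refine ⟨{s // P s} × ι, inferInstance, fun i => (i.1.2.choose) :: S i.2, fun i => ?_, ?_⟩
    · exact List.Forall₂.cons i.1.2.choose_spec.1 (h1 i.2)
    · intro Zs' h
      cases h with
      | cons h3 h4 =>
        rename_i Z' Zs'
        obtain ⟨i, hi⟩ := h2 _ h4
        obtain ⟨s, hs⟩ := ult_val Z'.U X
        refine ⟨⟨⟨s, Z', h3, hs⟩, i⟩, List.Forall₂.cons ?_ hi⟩
        exact Fin1.ueq hL (hF Z List.mem_cons_self)
          (⟨s, Z', h3, hs⟩ : {s // P s}).2.choose_spec.1 h3
          (⟨s, Z', h3, hs⟩ : {s // P s}).2.choose_spec.2 hs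

theorem forall2_rfl {ρ : Zone α → Zone α → Prop} (h : ∀ Z, ρ Z Z) (Zs : List (Zone α)) :
    List.Forall₂ ρ Zs Zs := by
  induction Zs with
  | nil => exact List.Forall₂.nil
  | cons Z Zs ih => exact List.Forall₂.cons (h Z) ih

include hC0 hCa in
theorem descent (hL : Alg L) (hL' : Alg L') (hLL : L ⊆ L')
    (hlen : ∀ n : ℕ, ind p {v : List α | n ≤ v.length} ∈ L) {X : List α → ZMod p}
    (hX : X ∈ L') : ∀ Zs : List (Zone α), (∀ Z ∈ Zs, Fin1 L L' X Z) →
      ∀ G : List α → ZMod p, (∀ Zs', List.Forall₂ (Eqv L) Zs Zs' → R Cap L' Zs' G) →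
        R Cap L Zs G := by
  classical
  have : NeZero p := ⟨hp.out.ne_zero⟩
  intro Zs
  induction Zs with
  | nil => intro _ G h; exact h [] List.Forall₂.nil
  | cons Z Zs ih =>
    intro hF G h
    have hFs : ∀ Z' ∈ Zs, Fin1 L L' X Z' := fun Z' hZ' => hF Z' (List.mem_cons_of_mem _ hZ')
    obtain ⟨ι, hι, S, h1, h2⟩ := reps hL (L' := L') (X := X) Zs hFs
    have := Fintype.ofFinite ι
    -- one window for all classes of the later zones
    have hstar : ∀ Z', Eqv L Z Z' → ∃ a ∈ L', (∀ᶠ v in (Z'.U : Filter (List α)), a v ≠ 0) ∧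
        ∀ k ∈ L', (∀ v, a v = 0 → k v = 0) → R Cap L Zs (N fun v => k v * G v.tail) := by
      intro Z' hZ'
      have h3 : ∀ i, ∃ a ∈ L', (∀ᶠ v in (Z'.U : Filter (List α)), a v ≠ 0) ∧
          ∀ k ∈ L', (∀ v, a v = 0 → k v = 0) → R Cap L' (S i) (N fun v => k v * G v.tail) :=
        fun i => h (Z' :: S i) (List.Forall₂.cons hZ' (h1 i))
      choose a ha h4 h5 using h3
      refine ⟨fun v => ∏ i, a i v, hL'.prod _ fun i _ => ha i, ?_, fun k hk hk' => ?_⟩
      · have h6 : ∀ i ∈ (Finset.univ : Finset ι), ∀ᶠ v in (Z'.U : Filter (List α)), a i v ≠ 0 :=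
          fun i _ => h4 i
        filter_upwards [(Filter.eventually_all_finset _).mpr h6] with v hv
        exact Finset.prod_ne_zero_iff.mpr hv
      · apply ih hFs
        intro Zs' hZs'
        obtain ⟨i, hi⟩ := h2 Zs' hZs'
        refine (h5 i k hk fun v hv => hk' v ?_).congr hL' hi
        exact Finset.prod_eq_zero (Finset.mem_univ i) hv
    -- one window for each value of X
    have hwin : ∀ s : ZMod p, ∃ b ∈ L, (∀ᶠ v in (Z.U : Filter (List α)), b v ≠ 0) ∧
        ∀ k ∈ L', (∀ v, k v ≠ 0 → X v = s ∧ b v ≠ 0) → R Cap L Zs (N fun v => k v * G v.tail) := by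
      intro s
      by_cases hs : ∃ Z', Eqv L Z Z' ∧ ∀ᶠ v in (Z'.U : Filter (List α)), X v = s
      · obtain ⟨Z', hZ', hs⟩ := hs
        obtain ⟨a, ha, h3, h4⟩ := hstar Z' hZ'
        obtain ⟨c, hc, a', ha', h5, h6⟩ := hF Z List.mem_cons_self Z' hZ' a ha
        refine ⟨fun v => c v * a' v, hL.mul hc ha', ?_, fun k hk hk' => h4 k hk fun v hv => ?_⟩
        · have h7 : ∀ᶠ v in (Z'.U : Filter (List α)), c v * a' v ≠ 0 := by
            filter_upwards [h5, h3, hs] with v h8 h9 h10
            rw [h6 s hs v h10 h8] at h9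
            exact mul_ne_zero h8 h9
          exact (hZ'.1.ne hL (hL.mul hc ha')).mpr h7
        · by_contra hcon
          obtain ⟨h7, h8⟩ := hk' v hcon
          have h9 : c v ≠ 0 := left_ne_zero_of_mul h8
          rw [h6 s hs v h7 h9] at hv
          exact h8 (by beta_reduce; rw [hv, mul_zero])
      · -- no strand with this value
        have h3 : ∃ f ∈ L, (∀ᶠ v in (Z.U : Filter (List α)), f v = 0) ∧
            ∀ v, f v = 0 → X v ≠ s := by
          by_contra hcon
          push Not at hcon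
          let G1 : Filter (List α) :=
            { sets := {A | ∃ f ∈ L, (∀ᶠ v in (Z.U : Filter (List α)), f v = 0) ∧
                ∀ v, f v = 0 → v ∈ A}
              univ_sets := ⟨fun _ => 0, hL.const 0, Eventually.of_forall fun _ => rfl,
                fun _ _ => trivial⟩
              sets_of_superset := by
                rintro A B ⟨f, hf, h1, h2⟩ hAB
                exact ⟨f, hf, h1, fun v hv => hAB (h2 v hv)⟩
              inter_sets := by
                rintro A B ⟨f, hf, h1, h2⟩ ⟨g, hg, h1', h2'⟩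
                have key : ∀ v, f v ^ (p - 1) + g v ^ (p - 1) - f v ^ (p - 1) * g v ^ (p - 1) = 0 →
                    f v = 0 ∧ g v = 0 := by
                  intro v hv
                  by_cases h3 : f v = 0
                  · by_cases h4 : g v = 0
                    · exact ⟨h3, h4⟩
                    · rw [h3, zero_pow (Nat.sub_ne_zero_of_lt hp.out.one_lt),
                        ZMod.pow_card_sub_one_eq_one h4] at hv
                      simp at hv
                  · rw [ZMod.pow_card_sub_one_eq_one h3] at hv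
                    simp at hv
                refine ⟨fun v => f v ^ (p - 1) + g v ^ (p - 1) - f v ^ (p - 1) * g v ^ (p - 1),
                  hL.sub (hL.add (hL.pow hf _) (hL.pow hg _)) (hL.mul (hL.pow hf _) (hL.pow hg _)),
                  ?_, fun v hv => ⟨h2 v (key v hv).1, h2' v (key v hv).2⟩⟩
                filter_upwards [h1, h1'] with v h3 h4
                rw [h3, h4, zero_pow (Nat.sub_ne_zero_of_lt hp.out.one_lt)]
                ring }
          have hne : (G1 ⊓ 𝓟 {v | X v = s}).NeBot := by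
            rw [inf_principal_neBot_iff]
            rintro A ⟨f, hf, h4, h5⟩
            obtain ⟨v, h6, h7⟩ := hcon f hf h4
            exact ⟨v, h5 v h6, h7⟩
          set V := Ultrafilter.of (G1 ⊓ 𝓟 {v | X v = s}) with hV
          have hVle : (V : Filter (List α)) ≤ G1 ⊓ 𝓟 {v | X v = s} := Ultrafilter.of_le _
          obtain ⟨Z', h4, h5⟩ := lift hL hlen Z V fun f hf h6 =>
            hVle (mem_inf_of_left ⟨f, hf, h6, fun v hv => hv⟩)
          refine hs ⟨Z', h5, ?_⟩
          rw [h4]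
          exact hVle (mem_inf_of_right (mem_principal_self _))
        obtain ⟨f, hf, h4, h5⟩ := h3
        obtain ⟨b, hb, h6⟩ := ne_iff hL hf
        refine ⟨b, hb, ?_, fun k hk hk' => ?_⟩
        · filter_upwards [h4] with v hv h7
          exact (h6 v).mp h7 hv
        · refine R.ext (fun v => ?_) (R.zero hC0 hL Zs)
          rw [N_congr (g := fun _ => 0) (fun w _ => ?_) v, N_zero]
          have : k w = 0 := by
            by_contra hcon
            obtain ⟨h7, h8⟩ := hk' w hcon
            have h9 : f w = 0 := by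
              by_contra h10
              exact h8 ((h6 w).mpr h10)
            exact h5 w h9 h7
          rw [this, zero_mul]
    choose b hb h3 h4 using hwin
    refine ⟨fun v => ∏ s, b s v, hL.prod _ fun s _ => hb s, ?_, fun k hk hk' => ?_⟩
    · have h6 : ∀ s ∈ (Finset.univ : Finset (ZMod p)), ∀ᶠ v in (Z.U : Filter (List α)),
          b s v ≠ 0 := fun s _ => h3 s
      filter_upwards [(Filter.eventually_all_finset _).mpr h6] with v hv
      exact Finset.prod_ne_zero_iff.mpr hv
    · have h5 : ∀ s ∈ (Finset.univ : Finset (ZMod p)),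
          R Cap L Zs (N fun v => (k v * ind p {v | X v = s} v) * G v.tail) := by
        intro s _
        refine h4 s _ (hL'.mul (hLL hk) ((hL'.ms hX) {s})) fun v hv => ?_
        refine ⟨?_, ?_⟩
        · have := right_ne_zero_of_mul hv
          simp only [ind, Set.mem_ofPred_eq] at this
          by_contra hcon
          rw [if_neg hcon] at this
          exact this rfl
        · intro h6
          exact left_ne_zero_of_mul hv (hk' v (Finset.prod_eq_zero (Finset.mem_univ s) h6))
      refine R.ext (fun v => ?_) (R.sum hC0 hCa hL Finset.univ h5)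
      rw [← N_sum]
      refine N_congr (fun w _ => ?_) v
      rw [← Finset.sum_mul, ← Finset.mul_sum]
      congr 1
      have : ∑ s : ZMod p, ind p {v | X v = s} w = 1 := by
        rw [Finset.sum_eq_single (X w)]
        · simp [ind]
        · intro b _ hb
          simp only [ind, Set.mem_ofPred_eq]
          rw [if_neg (fun h => hb h.symm)]
        · intro h
          exact absurd (Finset.mem_univ _) h
      rw [this, mul_one]

end R

end Vale.Agent.P329.H839
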