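import Mathlib.Order.Filter.Ultrafilter.Basic
import Mathlib.FieldTheory.Finite.Basic
import Mathlib.Data.ZMod.Basic

/-!
Zones of a text space without topology: a zone is an ultrafilter on the words together with a
minimal shift invariant filter in its orbit closure. Words are lists, newest letter first; the
shift drops the newest letter.
-/

open Filter

namespace Vale.Agent.P329.H839

variable {α : Type} {p : ℕ}

/-- A zone. -/
structure Zone (α : Type) where
  U : Ultrafilter (List α)
  M : Filter (List α)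
  ne : M.NeBot
  inv : Tendsto List.tail M M
  mn : ∀ G : Filter (List α), G ≤ M → G.NeBot → Tendsto List.tail G G → M ≤ G
  adh : ∀ A : Set (List α), (∀ i : ℕ, ∀ᶠ v in (U : Filter (List α)), v.drop i ∈ A) → A ∈ M
  long : ∀ n : ℕ, ∀ᶠ v in (U : Filter (List α)), n ≤ v.length

theorem exists_zone (U : Ultrafilter (List α))
    (long : ∀ n : ℕ, ∀ᶠ v in (U : Filter (List α)), n ≤ v.length)
    (G : Filter (List α)) (hG : G.NeBot) (hi : Tendsto List.tail G G)
    (ha : ∀ A : Set (List α), (∀ i : ℕ, ∀ᶠ v in (U : Filter (List α)), v.drop i ∈ A) → A ∈ G) :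
    ∃ Z : Zone α, Z.U = U ∧ Z.M ≤ G := by
  obtain ⟨m, hm⟩ := zorn_le₀ (α := (Filter (List α))ᵒᵈ)
    {F | OrderDual.ofDual F ≤ G ∧ (OrderDual.ofDual F).NeBot ∧
      Tendsto List.tail (OrderDual.ofDual F) (OrderDual.ofDual F)} (by
    intro c hc hch
    rcases c.eq_empty_or_nonempty with rfl | ⟨F0, hF0⟩
    · exact ⟨OrderDual.toDual G, ⟨le_rfl, hG, hi⟩, by simp⟩
    · set c' : Set (Filter (List α)) := OrderDual.ofDual '' c with hc'
      have hne : c'.Nonempty := ⟨_, F0, hF0, rfl⟩
      have hle : ∀ z ∈ c, sInf c' ≤ OrderDual.ofDual z := fun z hz =>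
        sInf_le (Set.mem_image_of_mem _ hz)
      refine ⟨OrderDual.toDual (sInf c'), ⟨?_, ?_, ?_⟩, ?_⟩
      · exact (hle F0 hF0).trans (hc hF0).1
      · have hd : DirectedOn (· ≥ ·) c' := by
          rintro _ ⟨A, hA, rfl⟩ _ ⟨B, hB, rfl⟩
          rcases hch.total hA hB with h | h
          · exact ⟨_, ⟨B, hB, rfl⟩, h, le_rfl⟩
          · exact ⟨_, ⟨A, hA, rfl⟩, le_rfl, h⟩
        have hbot : ⊥ ∉ c' := by
          rintro ⟨A, hA, h⟩
          exact (hc hA).2.1.ne h
        exact sInf_neBot_of_directed' hne hd hbot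
      · change Filter.map _ _ ≤ _
        refine le_sInf ?_
        rintro _ ⟨A, hA, rfl⟩
        exact (map_mono (hle A hA)).trans (hc hA).2.2
      · intro z hz
        exact hle z hz)
  obtain ⟨⟨h1, h2, h3⟩, hmin⟩ := hm
  refine ⟨⟨U, OrderDual.ofDual m, h2, h3, ?_, ?_, long⟩, rfl, h1⟩
  · intro F hF hn ht
    exact hmin (y := OrderDual.toDual F) ⟨hF.trans h1, hn, ht⟩ hF
  · intro A hA
    exact h1 (ha A hA)

namespace Zone

variable (Z : Zone α)

theorem inv_drop (i : ℕ) : Tendsto (List.drop i) Z.M Z.M := by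
  induction i with
  | zero => exact tendsto_id
  | succ i ih =>
    have : (List.drop (i + 1) : List α → List α) = List.drop i ∘ List.tail := by
      funext v
      simp
    rw [this]
    exact ih.comp Z.inv

theorem hit {A : Set (List α)} (h : ∃ᶠ v in Z.M, v ∈ A) :
    ∃ n : ℕ, ∀ᶠ v in Z.M, ∃ i ≤ n, v.drop i ∈ A := by
  by_contra hcon
  push Not at hcon
  have hne := Z.ne
  let S : ℕ → Set (List α) := fun n => {v | ∀ i ≤ n, v.drop i ∉ A}
  let G : Filter (List α) := ⨅ n, Z.M ⊓ 𝓟 (S n)
  have hanti : ∀ m n, m ≤ n → S n ⊆ S m := fun m n hmn v hv i hi => hv i (hi.trans hmn)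
  have hGn : G.NeBot := by
    refine iInf_neBot_of_directed ?_ ?_
    · intro m n
      refine ⟨max m n, ?_, ?_⟩
      · exact inf_le_inf_left _ (principal_mono.mpr (hanti _ _ (le_max_left _ _)))
      · exact inf_le_inf_left _ (principal_mono.mpr (hanti _ _ (le_max_right _ _)))
    · intro n
      rw [inf_principal_neBot_iff]
      intro B hB
      have h1 : ∃ᶠ v in Z.M, ∀ i ≤ n, v.drop i ∉ A := hcon n
      obtain ⟨v, hv1, hv2⟩ := (h1.and_eventually hB).exists
      exact ⟨v, hv2, hv1⟩
  have hGM : G ≤ Z.M := (iInf_le _ 0).trans inf_le_left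
  have hGS : ∀ n, S n ∈ G := fun n =>
    (iInf_le _ n : G ≤ _) (mem_inf_of_right (mem_principal_self _))
  have hGi : Tendsto List.tail G G := by
    refine tendsto_iInf.mpr fun n => tendsto_inf.mpr ⟨?_, ?_⟩
    · exact Z.inv.mono_left hGM
    · rw [tendsto_principal]
      filter_upwards [hGS (n + 1)] with v hv
      intro i hi
      have := hv (i + 1) (by omega)
      simpa using this
  have h1 := Z.mn G hGM hGn hGi
  have h2 : S 0 ∈ Z.M := h1 (hGS 0)
  apply h
  filter_upwards [h2] with v hv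
  simpa using hv 0 le_rfl

theorem hitU {A : Set (List α)} (h : ∃ᶠ v in Z.M, v ∈ A) :
    ∃ i : ℕ, ∀ᶠ v in (Z.U : Filter (List α)), v.drop i ∈ A := by
  by_contra hcon
  push Not at hcon
  apply h
  refine Z.adh Aᶜ fun i => ?_
  exact hcon i

theorem longM (n : ℕ) : ∀ᶠ v in Z.M, n ≤ v.length := by
  refine Z.adh {v | n ≤ v.length} fun i => ?_
  filter_upwards [Z.long (n + i)] with v hv
  have h1 : (v.drop i).length = v.length - i := List.length_drop
  have h2 : n ≤ (v.drop i).length := by omega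
  exact h2

theorem ev_drop {P : List α → Prop} (h : ∀ᶠ v in Z.M, P v) (n : ℕ) :
    ∀ᶠ v in Z.M, ∀ i ≤ n, P (v.drop i) := by
  have : ∀ i ∈ Finset.range (n + 1), ∀ᶠ v in Z.M, P (v.drop i) := fun i _ =>
    (Z.inv_drop i).eventually h
  filter_upwards [(Filter.eventually_all_finset _).mpr this] with v hv i hi
  exact hv i (Finset.mem_range.mpr (by omega))

theorem ev_tail {P : List α → Prop} (h : ∀ᶠ v in Z.M, P v) : ∀ᶠ v in Z.M, P v.tail :=
  Z.inv.eventually h

end Zone

/-! ### Algebras of functions -/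

open Classical in
/-- indicator -/
noncomputable def ind (p : ℕ) (A : Set (List α)) : List α → ZMod p :=
  fun v => if v ∈ A then 1 else 0

/-- A shift invariant algebra of functions on the words. -/
structure Alg (L : Set (List α → ZMod p)) : Prop where
  const : ∀ c : ZMod p, (fun _ => c) ∈ L
  add : ∀ {f g : List α → ZMod p}, f ∈ L → g ∈ L → (fun v => f v + g v) ∈ L
  mul : ∀ {f g : List α → ZMod p}, f ∈ L → g ∈ L → (fun v => f v * g v) ∈ L
  tl : ∀ {f : List α → ZMod p}, f ∈ L → (fun v => f v.tail) ∈ L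

namespace Alg

variable {L : Set (List α → ZMod p)} (hL : Alg L)
include hL

theorem sum {ι : Type} (s : Finset ι) {f : ι → List α → ZMod p} (h : ∀ i ∈ s, f i ∈ L) :
    (fun v => ∑ i ∈ s, f i v) ∈ L := by
  classical
  induction s using Finset.induction_on with
  | empty => simpa using hL.const 0
  | insert a s ha ih =>
    have h1 := hL.add (h a (Finset.mem_insert_self _ _))
      (ih fun i hi => h i (Finset.mem_insert_of_mem hi))
    simpa [Finset.sum_insert ha] using h1

theorem prod {ι : Type} (s : Finset ι) {f : ι → List α → ZMod p} (h : ∀ i ∈ s, f i ∈ L) :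
    (fun v => ∏ i ∈ s, f i v) ∈ L := by
  classical
  induction s using Finset.induction_on with
  | empty => simpa using hL.const 1
  | insert a s ha ih =>
    have h1 := hL.mul (h a (Finset.mem_insert_self _ _))
      (ih fun i hi => h i (Finset.mem_insert_of_mem hi))
    simpa [Finset.prod_insert ha] using h1

theorem smul (c : ZMod p) {f : List α → ZMod p} (h : f ∈ L) : (fun v => c * f v) ∈ L :=
  hL.mul (hL.const c) h

theorem neg {f : List α → ZMod p} (h : f ∈ L) : (fun v => - f v) ∈ L := by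
  simpa using hL.smul (-1) h

theorem sub {f g : List α → ZMod p} (h : f ∈ L) (h' : g ∈ L) : (fun v => f v - g v) ∈ L := by
  simpa [sub_eq_add_neg] using hL.add h (hL.neg h')

theorem pow {f : List α → ZMod p} (h : f ∈ L) (n : ℕ) : (fun v => f v ^ n) ∈ L := by
  induction n with
  | zero => simpa using hL.const 1
  | succ n ih => simpa [pow_succ] using hL.mul ih h

theorem drop {f : List α → ZMod p} (h : f ∈ L) (i : ℕ) : (fun v => f (v.drop i)) ∈ L := by
  induction i with
  | zero => simpa using h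
  | succ i ih => simpa using hL.tl ih

end Alg

/-- Measurable functions with values in a type. -/
def Ms (L : Set (List α → ZMod p)) {β : Type} (F : List α → β) : Prop :=
  ∀ S : Set β, ind p {v | F v ∈ S} ∈ L

section Ms

variable {L : Set (List α → ZMod p)} {β γ ι : Type}

theorem Ms.comp {F : List α → β} (h : Ms L F) (Φ : β → γ) : Ms L fun v => Φ (F v) :=
  fun S => h (Φ ⁻¹' S)

theorem Ms.of_point (hL : Alg L) [Finite β] {F : List α → β}
    (h : ∀ b, ind p {v | F v = b} ∈ L) : Ms L F := by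
  classical
  intro S
  have := Fintype.ofFinite β
  have h1 := hL.sum (Finset.univ.filter fun b => b ∈ S) (f := fun b => ind p {v | F v = b})
    fun b _ => h b
  refine Set.mem_of_eq_of_mem ?_ h1
  funext v
  simp only [ind, Set.mem_ofPred_eq]
  rw [Finset.sum_ite_eq]
  simp

theorem Ms.pi (hL : Alg L) [Finite β] [Finite ι] {F : ι → List α → β}
    (h : ∀ i, Ms L (F i)) : Ms L fun v i => F i v := by
  classical
  have := Fintype.ofFinite ι
  apply Ms.of_point hL
  intro b
  have h1 := hL.prod Finset.univ (f := fun i => ind p {v | F i v = b i})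
    fun i _ => h i {b i}
  refine Set.mem_of_eq_of_mem ?_ h1
  funext v
  simp only [ind, Set.mem_ofPred_eq]
  by_cases hv : (fun i => F i v) = b
  · rw [if_pos hv, Finset.prod_eq_one]
    intro i _
    rw [if_pos (congrFun hv i)]
  · rw [if_neg hv]
    have : ∃ i, F i v ≠ b i := by
      by_contra hcon
      push Not at hcon
      exact hv (funext hcon)
    obtain ⟨i, hi⟩ := this
    exact (Finset.prod_eq_zero (Finset.mem_univ i) (if_neg hi)).symm

theorem Ms.prod (hL : Alg L) [Finite β] [Finite γ] {F : List α → β} {G : List α → γ}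
    (h : Ms L F) (h' : Ms L G) : Ms L fun v => (F v, G v) := by
  classical
  apply Ms.of_point hL
  rintro ⟨b, c⟩
  refine Set.mem_of_eq_of_mem ?_ (hL.mul (h {b}) (h' {c}))
  funext v
  simp only [ind, Set.mem_ofPred_eq, Prod.mk.injEq, Set.mem_singleton_iff]
  by_cases h1 : F v = b <;> by_cases h2 : G v = c <;> simp [h1, h2]

theorem Ms.tl (hL : Alg L) {F : List α → β} (h : Ms L F) : Ms L fun v => F v.tail :=
  fun S => hL.tl (h S)

theorem Ms.drop (hL : Alg L) {F : List α → β} (h : Ms L F) (i : ℕ) : Ms L fun v => F (v.drop i) :=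
  fun S => hL.drop (h S) i

variable [hp : Fact p.Prime]

theorem Alg.ms (hL : Alg L) {f : List α → ZMod p} (h : f ∈ L) : Ms L f := by
  classical
  have : NeZero p := ⟨hp.out.ne_zero⟩
  apply Ms.of_point hL
  intro b
  refine Set.mem_of_eq_of_mem ?_ (hL.sub (hL.const 1) (hL.pow (hL.sub h (hL.const b)) (p - 1)))
  funext v
  simp only [ind, Set.mem_ofPred_eq]
  by_cases hv : f v = b
  · rw [if_pos hv, hv, sub_self, zero_pow (Nat.sub_ne_zero_of_lt hp.out.one_lt), sub_zero]
  · rw [if_neg hv, ZMod.pow_card_sub_one_eq_one (sub_ne_zero.mpr hv), sub_self]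

theorem Ms.fn (hL : Alg L) {f : List α → ZMod p} (h : Ms L f) : f ∈ L := by
  classical
  have : NeZero p := ⟨hp.out.ne_zero⟩
  have h1 := hL.sum (Finset.univ : Finset (ZMod p)) (f := fun a v => a * ind p {v | f v = a} v)
    fun a _ => hL.smul a (h {a})
  refine Set.mem_of_eq_of_mem ?_ h1
  funext v
  simp only [ind, Set.mem_ofPred_eq, mul_ite, mul_one, mul_zero]
  rw [Finset.sum_ite_eq]
  simp

end Ms

/-- Coboundaries. -/
def Cob (L : Set (List α → ZMod p)) (M : Filter (List α)) (h : List α → ZMod p) : Prop :=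
  ∃ ψ ∈ L, ∀ᶠ v in M, h v = ψ v - ψ v.tail

variable [hp : Fact p.Prime] {L : Set (List α → ZMod p)}

/-- The skew product by a function which is no coboundary is full. -/
theorem full (Z : Zone α) (hL : Alg L) {h X : List α → ZMod p} (hh : h ∈ L)
    (hX : ∀ᶠ v in Z.M, X v.tail = X v - h v) (hc : ¬ Cob L Z.M h)
    {B : List α → Finset (ZMod p)} (hB : Ms L B) (hXB : ∀ᶠ v in Z.M, X v ∈ B v) :
    ∀ᶠ v in Z.M, B v = Finset.univ := by
  classical
  have hne := Z.ne
  have : NeZero p := ⟨hp.out.ne_zero⟩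
  let Q : ℕ → Prop := fun m => ∃ B : List α → Finset (ZMod p), Ms L B ∧
    (∀ᶠ v in Z.M, X v ∈ B v) ∧ ∃ᶠ v in Z.M, (B v).card ≤ m
  have hex : ∃ m, Q m := ⟨p, B, hB, hXB, by
    apply Eventually.frequently
    filter_upwards with v
    exact (Finset.card_le_univ _).trans (by rw [ZMod.card])⟩
  have hsp := Nat.find_spec hex
  have hmin : ∀ k, k < Nat.find hex → ¬ Q k := fun k hk => Nat.find_min hex hk
  generalize Nat.find hex = m at hsp hmin
  have hmin' : ∀ B : List α → Finset (ZMod p), Ms L B → (∀ᶠ v in Z.M, X v ∈ B v) →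
      ∀ᶠ v in Z.M, m ≤ (B v).card := by
    intro B hB hXB
    by_contra hcon
    rw [not_eventually] at hcon
    rcases Nat.eq_zero_or_pos m with hm | hm
    · obtain ⟨v, hv⟩ := hcon.exists
      omega
    · refine hmin (m - 1) (by omega) ⟨B, hB, hXB, hcon.mono fun v hv => ?_⟩
      omega
  obtain ⟨B0, hB0, hX0, hf0⟩ := hsp
  obtain ⟨n, hn⟩ := Z.hit (A := {v | (B0 v).card ≤ m}) hf0
  -- the sums of `h`
  have hH : ∀ i, (fun v : List α => ∑ k ∈ Finset.range i, h (v.drop k)) ∈ L := fun i =>
    hL.sum _ fun k _ => hL.drop hh k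
  have hXi : ∀ i, ∀ᶠ v in Z.M, X (v.drop i) = X v - ∑ k ∈ Finset.range i, h (v.drop k) := by
    intro i
    induction i with
    | zero => filter_upwards with v; simp
    | succ i ih =>
      filter_upwards [ih, Z.ev_drop hX i] with v h1 h2
      have h3 := h2 i le_rfl
      rw [List.tail_drop] at h3
      rw [h3, h1, Finset.sum_range_succ]
      ring
  let B1 : List α → Finset (ZMod p) := fun v => Finset.univ.filter fun s =>
    ∀ i : Fin (n + 1), s - ∑ k ∈ Finset.range i.1, h (v.drop k) ∈ B0 (v.drop i.1)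
  have hB1 : Ms L B1 := by
    have h1 : Ms L fun v : List α => (fun i : Fin (n + 1) =>
        ((∑ k ∈ Finset.range i.1, h (v.drop k), B0 (v.drop i.1)) : ZMod p × Finset (ZMod p))) :=
      Ms.pi hL (F := fun (i : Fin (n + 1)) v =>
        ((∑ k ∈ Finset.range i.1, h (v.drop k), B0 (v.drop i.1)) : ZMod p × Finset (ZMod p)))
        fun i => Ms.prod hL (hL.ms (hH i.1)) (hB0.drop hL i.1)
    exact h1.comp fun F => Finset.univ.filter fun s => ∀ i : Fin (n + 1), s - (F i).1 ∈ (F i).2
  have hX1 : ∀ᶠ v in Z.M, X v ∈ B1 v := by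
    have h1 : ∀ i ∈ Finset.range (n + 1), ∀ᶠ v in Z.M,
        X (v.drop i) = X v - ∑ k ∈ Finset.range i, h (v.drop k) := fun i _ => hXi i
    filter_upwards [(Filter.eventually_all_finset _).mpr h1, Z.ev_drop hX0 n] with v h2 h3
    refine Finset.mem_filter.mpr ⟨Finset.mem_univ _, fun i => ?_⟩
    rw [← h2 i.1 (Finset.mem_range.mpr i.2)]
    exact h3 i.1 (by omega)
  have hc1 : ∀ᶠ v in Z.M, (B1 v).card ≤ m := by
    filter_upwards [hn] with v hv
    obtain ⟨i, hi, h1⟩ := hv
    refine le_trans ?_ (show (B0 (v.drop i)).card ≤ m from h1)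
    apply Finset.card_le_card_of_injOn (fun s => s - ∑ k ∈ Finset.range i, h (v.drop k))
    · intro s hs
      exact (Finset.mem_filter.mp hs).2 ⟨i, by omega⟩
    · intro s _ t _ hst
      exact sub_left_injective hst
  have hc2 := hmin' B1 hB1 hX1
  let B2 : List α → Finset (ZMod p) := fun v => (B1 v).filter fun s => s - h v ∈ B1 v.tail
  have hB2 : Ms L B2 := by
    have h1 := Ms.prod hL (hL.ms hh) (Ms.prod hL hB1 (hB1.tl hL))
    exact h1.comp fun F => F.2.1.filter fun s => s - F.1 ∈ F.2.2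
  have hX2 : ∀ᶠ v in Z.M, X v ∈ B2 v := by
    filter_upwards [hX1, Z.ev_tail hX1, hX] with v h1 h2 h3
    exact Finset.mem_filter.mpr ⟨h1, by rw [← h3]; exact h2⟩
  have hc3 := hmin' B2 hB2 hX2
  have heq : ∀ᶠ v in Z.M, B1 v.tail = (B1 v).image fun s => s - h v := by
    filter_upwards [hc1, hc3, Z.ev_tail hc1] with v h1 h2 h3
    have h4 : B2 v = B1 v := Finset.eq_of_subset_of_card_le (Finset.filter_subset _ _)
      (h1.trans h2)
    symm
    apply Finset.eq_of_subset_of_card_le
    · intro t ht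
      obtain ⟨s, hs, rfl⟩ := Finset.mem_image.mp ht
      rw [← h4] at hs
      exact (Finset.mem_filter.mp hs).2
    · rw [Finset.card_image_of_injective _ sub_left_injective]
      refine h3.trans (h2.trans ?_)
      rw [h4]
  by_cases hmp : m = p
  · filter_upwards [hmin' B hB hXB] with v hv
    apply Finset.eq_univ_of_card
    apply le_antisymm (Finset.card_le_univ _)
    rw [ZMod.card]
    exact hmp.symm.le.trans hv
  · exfalso
    have hm0 : m ≠ 0 := by
      rintro rfl
      obtain ⟨v, h1, h2⟩ := (hX1.and hc1).exists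
      have := Finset.card_eq_zero.mp (Nat.le_zero.mp h2)
      rw [this] at h1
      exact absurd h1 (Finset.notMem_empty _)
    have hmp' : m ≤ p := by
      obtain ⟨v, h1⟩ := hc2.exists
      refine h1.trans ((Finset.card_le_univ _).trans (by rw [ZMod.card]))
    have hmz : (m : ZMod p) ≠ 0 := by
      intro h
      rw [ZMod.natCast_eq_zero_iff] at h
      have := Nat.le_of_dvd (Nat.pos_of_ne_zero hm0) h
      omega
    have hσ : (fun v => ∑ s ∈ B1 v, s) ∈ L := (hB1.comp fun B => ∑ s ∈ B, s).fn hL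
    refine hc ⟨fun v => (m : ZMod p)⁻¹ * ∑ s ∈ B1 v, s, hL.smul _ hσ, ?_⟩
    filter_upwards [heq, hc1, hc2] with v h1 h2 h3
    have h4 : (B1 v).card = m := le_antisymm h2 h3
    rw [h1, Finset.sum_image (fun s _ t _ hst => sub_left_injective hst), Finset.sum_sub_distrib,
      Finset.sum_const, h4, nsmul_eq_mul]
    field_simp
    ring

end Vale.Agent.P329.H839
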