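import Vale.Agent.P329.H839.Lan

/-!
Coverage, gauge, and the main induction.
-/

open Filter

namespace Vale.Agent.P329.H839

variable {α : Type} {p : ℕ}

/-- iterated return stages -/
def itw : (List α → ZMod p) → List (ZMod p) → (List α → ZMod p)
  | w, [] => w
  | w, ρ :: rs => itw (rc w ρ) rs

theorem rc_nil {w : List α → ZMod p} (h0 : w [] = 0) (ρ : ZMod p) : rc w ρ [] = 0 := by
  rw [rc]
  split_ifs
  · exact h0
  · rfl

section

variable [hp : Fact p.Prime]

theorem itw_congr (Z : Zone α) : ∀ (rs : List (ZMod p)) (f g : List α → ZMod p),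
    f [] = 0 → g [] = 0 → (∀ᶠ v in Z.M, f v = g v) →
    ∃ rs', ∀ᶠ v in Z.M, itw f rs v = itw g rs' v := by
  have : NeZero p := ⟨hp.out.ne_zero⟩
  have hne := Z.ne
  intro rs
  induction rs with
  | nil => intro f g _ _ h; exact ⟨[], h⟩
  | cons ρ rs ih =>
    intro f g hf hg h
    -- the difference of the walks is constant
    have h1 : ∀ᶠ v in Z.M, N f v.tail - N g v.tail = N f v - N g v := by
      filter_upwards [h] with v hv
      rw [N_tail f hf, N_tail g hg, hv]
      ring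
    obtain ⟨c, hc⟩ : ∃ c, ∃ᶠ v in Z.M, N f v - N g v = c := by
      by_contra hcon
      push Not at hcon
      have h2 : ∀ c ∈ (Finset.univ : Finset (ZMod p)), ∀ᶠ v in Z.M, ¬ (N f v - N g v = c) :=
        fun c _ => hcon c
      obtain ⟨v, hv⟩ := ((Filter.eventually_all_finset _).mpr h2).exists
      exact hv _ (Finset.mem_univ _) rfl
    obtain ⟨n, hn⟩ := Z.hit (A := {v | N f v - N g v = c}) hc
    have h2 : ∀ᶠ v in Z.M, N f v - N g v = c := by
      filter_upwards [hn, Z.ev_drop h1 n] with v h3 h4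
      obtain ⟨i, hi, h5⟩ := h3
      have h6 : ∀ k ≤ i, N f (v.drop k) - N g (v.drop k) = N f v - N g v := by
        intro k
        induction k with
        | zero => intro _; simp
        | succ k ihk =>
          intro hk
          have e : v.drop (k + 1) = (v.drop k).tail := by simp
          rw [e, h4 k (by omega), ihk (by omega)]
      rw [← h6 i le_rfl]
      exact h5
    obtain ⟨rs', h3⟩ := ih (rc f ρ) (rc g (ρ - c)) (rc_nil hf ρ) (rc_nil hg _) (by
      filter_upwards [h, h2] with v h4 h5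
      rw [rc, rc, h4]
      have : N f v = ρ ↔ N g v = ρ - c := by
        constructor
        · intro h; linear_combination h - h5
        · intro h; linear_combination h + h5
      by_cases h6 : N f v = ρ
      · rw [if_pos h6, if_pos (this.mp h6)]
      · rw [if_neg h6, if_neg fun h => h6 (this.mpr h)])
    exact ⟨(ρ - c) :: rs', h3⟩

/-- walks with steps in `{0, 1}` are infinitely covered -/
theorem itw_bit (Z : Zone α) : ∀ (rs : List (ZMod p)) (w : List α → ZMod p), w [] = 0 →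
    (∀ v, w v = 0 ∨ w v = 1) → (∃ᶠ v in Z.M, w v ≠ 0) → ∃ᶠ v in Z.M, itw w rs v ≠ 0 := by
  have : NeZero p := ⟨hp.out.ne_zero⟩
  have hne := Z.ne
  intro rs
  induction rs with
  | nil => intro w _ _ h; exact h
  | cons ρ rs ih =>
    intro w h0 hb hw
    refine ih (rc w ρ) (rc_nil h0 ρ) (fun v => ?_) ?_
    · rw [rc]
      split_ifs
      · exact hb v
      · exact Or.inl rfl
    · obtain ⟨n, hn⟩ := Z.hit (A := {v | w v ≠ 0}) hw
      have key : ∀ r : ℕ, (∃ᶠ v in Z.M, w v ≠ 0 ∧ N w v = ρ + r) → ∃ᶠ v in Z.M, rc w ρ v ≠ 0 := by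
        intro r
        induction r with
        | zero =>
          intro h
          refine h.mono fun v hv => ?_
          rw [rc, if_pos (by simpa using hv.2)]
          exact hv.1
        | succ r ihr =>
          intro h
          apply ihr
          intro hcon
          obtain ⟨v, ⟨h1, h2⟩, h3, h4⟩ := (h.and_eventually
            ((Z.ev_drop hcon (n + 1)).and (Z.ev_tail hn))).exists
          classical
          have h5 : ∃ i, w (v.tail.drop i) ≠ 0 := by
            obtain ⟨i, _, hi⟩ := h4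
            exact ⟨i, hi⟩
          have h6 := Nat.find_spec h5
          have h7 : ∀ k, k < Nat.find h5 → w (v.tail.drop k) = 0 := fun k hk => by
            by_contra h8
            exact Nat.find_min h5 hk h8
          have h8 : Nat.find h5 ≤ n := by
            obtain ⟨i, hi, h9⟩ := h4
            exact (Nat.find_min' h5 h9).trans hi
          generalize Nat.find h5 = i at h6 h7 h8
          have h9 : N w (v.tail.drop i) = ρ + r := by
            rw [N_drop w h0, Finset.sum_eq_zero fun k hk => h7 k (Finset.mem_range.mp hk),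
              N_tail w h0, h2]
            have h10 : w v = 1 := (hb v).resolve_left h1
            rw [h10]
            push_cast
            ring
          have h10 : v.tail.drop i = v.drop (i + 1) := by simp
          rw [h10] at h6 h9
          exact h3 (i + 1) (by omega) ⟨h6, h9⟩
      by_contra hcon
      have h1 : ∀ r ∈ Finset.range p, ∀ᶠ v in Z.M, ¬ (w v ≠ 0 ∧ N w v = ρ + r) := by
        intro r _
        by_contra h2
        exact hcon (key r h2)
      obtain ⟨v, h2, h3⟩ := (hw.and_eventually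
        ((Filter.eventually_all_finset _).mpr h1)).exists
      refine h3 (N w v - ρ).val (Finset.mem_range.mpr (ZMod.val_lt _)) ⟨h2, ?_⟩
      rw [ZMod.natCast_zmod_val]
      ring

variable {Cap : Set (List α → ZMod p)} (S : Lang α p Cap)

/-- infinite coverage -/
def Lang.Cv (w : List α → ZMod p) (Z : Zone α) : Prop :=
  ∀ Z', Eqv (S.L w) Z Z' → ∀ rs, ∃ᶠ v in Z'.M, itw w rs v ≠ 0

theorem Lang.itw_gd (Z : Zone α) : ∀ (rs : List (ZMod p)) (w h : List α → ZMod p), S.St w →
    S.Un w h → ¬ Cob (S.L w) Z.M h → ∃ᶠ v in Z.M, itw h rs v ≠ 0 := by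
  intro rs
  induction rs with
  | nil =>
    intro w h hw hh hc hcon
    refine hc ⟨fun _ => 0, (S.alg w hw).const 0, ?_⟩
    filter_upwards [hcon] with v hv
    rw [sub_self]
    exact not_not.mp hv
  | cons ρ rs ih =>
    intro w h hw hh hc
    have h1 := S.st w h ρ hw hh
    exact ih (rc h ρ) (rc h ρ) h1 (S.un_self _ h1) (S.gd_next hw hh Z hc)

theorem cob_congr {L : Set (List α → ZMod p)} (hL : Alg L) {Z Z' : Zone α} (h : MEq L Z Z')
    {f : List α → ZMod p} (hf : f ∈ L) (hc : Cob L Z.M f) : Cob L Z'.M f := by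
  obtain ⟨ψ, hψ, h1⟩ := hc
  refine ⟨ψ, hψ, ?_⟩
  have h2 := (h (fun v => f v - (ψ v - ψ v.tail))
    (hL.sub hf (hL.sub hψ (hL.tl hψ)))).mp (h1.mono fun v hv => by rw [hv, sub_self])
  exact h2.mono fun v hv => sub_eq_zero.mp hv

theorem Lang.cv_next {w : List α → ZMod p} {ρ : ZMod p} (hw : S.St w) {Z Z' : Zone α}
    (hZ : S.Cv w Z) (h : Eqv (S.L w) Z Z') : S.Cv (rc w ρ) Z' := by
  intro Z'' h' rs
  exact hZ Z'' (h.trans (h'.mono (S.nx_L w w ρ hw (S.un_self w hw)))) (ρ :: rs)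

theorem Lang.desc {w h : List α → ZMod p} {ρ : ZMod p} (hw : S.St w) (hh : S.Un w h)
    (Zs : List (Zone α))
    (hZ : ∀ Z ∈ Zs, ∀ Z', Eqv (S.L w) Z Z' → ∃ᶠ v in Z'.M, rc h ρ v ≠ 0)
    (G : List α → ZMod p)
    (hR : ∀ Zs', List.Forall₂ (Eqv (S.L w)) Zs Zs' → R Cap (S.L (rc h ρ)) Zs' G) :
    R Cap (S.L w) Zs G :=
  descent S.cap0 S.capa (S.alg w hw) (S.alg _ (S.st w h ρ hw hh)) (S.nx_L w h ρ hw hh)
    (S.len w hw) (S.nx_N w h ρ hw hh) Zs (fun Z hZ' => S.fin1 hw hh Z (hZ Z hZ')) G hR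

/-- all local functions, given all functions with fewer marks -/
theorem Lang.stepA (m : ℕ)
    (ih : ∀ w, S.St w → ∀ Zs : List (Zone α), Zs.length = m → (∀ Z ∈ Zs, S.Cv w Z) →
      (∀ G ∈ S.L w, R Cap (S.L w) Zs G) ∧
      (∀ g ∈ S.L w, (∀ v, g v ≠ 0 → w v ≠ 0) → R Cap (S.L w) Zs (N g))) :
    ∀ w, S.St w → ∀ Zs : List (Zone α), Zs.length = m + 1 → (∀ Z ∈ Zs, S.Cv w Z) →
      ∀ G ∈ S.L w, R Cap (S.L w) Zs G := by
  intro w hw Zs hm hZ G hG
  cases Zs with
  | nil => simp at hm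
  | cons Z Zs =>
    have hL := S.alg w hw
    have h1 : ∃ᶠ v in Z.M, w v ≠ 0 := hZ Z List.mem_cons_self Z (Eqv.refl _ _) []
    obtain ⟨i, hi⟩ := Z.hitU (A := {v | w v ≠ 0}) h1
    have hwL := S.un_L w w hw (S.un_self w hw)
    refine ⟨fun v => w (v.drop i), hL.drop hwL i, hi, fun k hk hk' => ?_⟩
    have hf : (fun v => k v * G v.tail) ∈ S.L w := hL.mul hk (hL.tl hG)
    obtain ⟨g, hg, hgs, G', hG', h2⟩ := S.marks w _ hw hf ⟨i, fun v hv => ⟨i, le_rfl, fun h3 =>
      left_ne_zero_of_mul hv (hk' v h3)⟩⟩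
    obtain ⟨h3, h4⟩ := ih w hw Zs (by simpa using hm) fun Z' hZ' =>
      hZ Z' (List.mem_cons_of_mem _ hZ')
    exact R.ext (fun v => (h2 v).symm) (R.add S.capa hL (h4 g hg hgs) (h3 G' hG'))

/-- the walk of a unit is local over the next stage -/
theorem Lang.unitWalk {m : ℕ}
    (hA : ∀ w, S.St w → ∀ Zs : List (Zone α), Zs.length = m → (∀ Z ∈ Zs, S.Cv w Z) →
      ∀ G ∈ S.L w, R Cap (S.L w) Zs G)
    {w h : List α → ZMod p} (hw : S.St w) (hh : S.Un w h) (Zs : List (Zone α))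
    (hm : Zs.length = m)
    (hZ : ∀ Z ∈ Zs, ∀ Z', Eqv (S.L w) Z Z' → ∀ rs, ∃ᶠ v in Z'.M, itw h rs v ≠ 0) :
    R Cap (S.L w) Zs (N h) := by
  refine S.desc hw hh (ρ := 0) Zs (fun Z hZ' Z' h' => hZ Z hZ' Z' h' [0]) _ fun Zs' h' => ?_
  refine hA (rc h 0) (S.st w h 0 hw hh) Zs' (by rw [← h'.length_eq]; exact hm) ?_ _
    (S.nx_N w h 0 hw hh)
  intro Z' hZ' Z'' h'' rs
  obtain ⟨Z, hZm, hZZ⟩ : ∃ Z ∈ Zs, Eqv (S.L w) Z Z' := by
    clear hm hZ
    induction h' with
    | nil => simp at hZ'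
    | cons h1 _ ih =>
      rcases List.mem_cons.mp hZ' with rfl | h3
      · exact ⟨_, List.mem_cons_self, h1⟩
      · obtain ⟨Z, h4, h5⟩ := ih h3
        exact ⟨Z, List.mem_cons_of_mem _ h4, h5⟩
  exact hZ Z hZm Z'' (hZZ.trans (h''.mono (S.nx_L w h 0 hw hh))) (0 :: rs)

/-- The gauge. -/
theorem Lang.gauge {w φ ψ : List α → ZMod p} (hw : S.St w) (hφ : φ ∈ S.L w)
    (hs : ∀ v, φ v ≠ 0 → w v ≠ 0) (hψ : ψ ∈ S.L w) (Z : Zone α)
    (hZ : ∃ᶠ v in Z.M, w v ≠ 0) (hc : ∀ᶠ v in Z.M, φ v = ψ v - ψ v.tail)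
    (hn : ¬ ∀ᶠ v in Z.M, φ v = 0) :
    ∃ φ' ∈ S.L w, (∀ v, φ' v ≠ 0 → w v ≠ 0) ∧ ∃ G ∈ S.L w, (∀ v, N φ v = N φ' v + G v) ∧
      (∀ᶠ v in Z.M, φ' v = 0) ∧ ∀ Z' : Zone α, (∃ᶠ v in Z'.M, w v ≠ 0) →
        (∀ᶠ v in Z'.M, φ v = 0) → ∀ᶠ v in Z'.M, φ' v = 0 := by
  classical
  have hL := S.alg w hw
  obtain ⟨n, hn'⟩ := Z.hit (A := {v | φ v ≠ 0}) (not_eventually.mp hn)
  -- the separating function
  let χ : List α → ZMod p := ind p {v | ∃ i : Fin (n + 1), φ (v.drop i.1) ≠ 0}
  have hχ : χ ∈ S.L w := by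
    have h1 : Ms (S.L w) fun v : List α => (fun i : Fin (n + 1) => φ (v.drop i.1)) :=
      Ms.pi hL (F := fun (i : Fin (n + 1)) v => φ (v.drop i.1)) fun i => (hL.ms hφ).drop hL i.1
    exact h1 {F | ∃ i, F i ≠ 0}
  obtain ⟨f', hf', h1⟩ := S.til w (fun v => χ v * ψ v) hw (hL.mul hχ hψ)
  -- value at the last cut
  have hlast : ∀ (i : ℕ) (v : List α), (∀ k < i, w (v.drop k) = 0) → w (v.drop i) ≠ 0 →
      f' v = χ (v.drop i) * ψ (v.drop i) := by
    intro i
    induction i with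
    | zero =>
      intro v _ h2
      rw [h1 v, if_pos (by simpa using h2)]
      simp
    | succ i ih =>
      intro v h2 h3
      have h4 : w v = 0 := by simpa using h2 0 (by omega)
      rw [h1 v, if_neg (by simpa using h4)]
      have h5 : v ≠ [] := by
        rintro rfl
        rw [List.drop_nil, S.nil w hw] at h3
        exact h3 rfl
      rw [if_neg h5, ih v.tail (fun k hk => by
        have := h2 (k + 1) (by omega)
        simpa using this) (by simpa using h3)]
      simp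
  have hfind : ∀ (n : ℕ) (v : List α), (∃ i ≤ n, w (v.drop i) ≠ 0) →
      ∃ i ≤ n, (∀ k < i, w (v.drop k) = 0) ∧ w (v.drop i) ≠ 0 := by
    intro n v h
    have h5 : ∃ i, w (v.drop i) ≠ 0 := by
      obtain ⟨i, _, hi⟩ := h
      exact ⟨i, hi⟩
    refine ⟨Nat.find h5, ?_, fun k hk => ?_, Nat.find_spec h5⟩
    · obtain ⟨i, hi, h9⟩ := h
      exact (Nat.find_min' h5 h9).trans hi
    · by_contra h8
      exact Nat.find_min h5 hk h8
  have hsup : ∀ v, φ v - (f' v - f' v.tail) ≠ 0 → w v ≠ 0 := by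
    intro v hv h2
    apply hv
    have h3 : φ v = 0 := by
      by_contra h4
      exact hs v h4 h2
    rw [h3]
    by_cases h4 : v = []
    · subst h4; simp
    · rw [h1 v, if_neg (by simpa using h2), if_neg h4]
      ring
  have hf0 : f' [] = 0 := by
    rw [h1, if_neg (by simpa using S.nil w hw), if_pos rfl]
  refine ⟨fun v => φ v - (f' v - f' v.tail), hL.sub hφ (hL.sub hf' (hL.tl hf')), hsup, f', hf',
    ?_, ?_, ?_⟩
  · intro v
    induction v with
    | nil => simp [N, hf0]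
    | cons x v ih => simp only [N, ih, List.tail_cons]; ring
  · -- in the zone itself
    obtain ⟨n1, hn1⟩ := Z.hit (A := {v | w v ≠ 0}) hZ
    have h2 : ∀ᶠ v in Z.M, χ v = 1 := by
      filter_upwards [hn'] with v hv
      obtain ⟨i, hi, h3⟩ := hv
      have : v ∈ {v | ∃ i : Fin (n + 1), φ (v.drop i.1) ≠ 0} := ⟨⟨i, by omega⟩, h3⟩
      simp only [χ, ind]
      rw [if_pos this]
    have h3 : ∀ᶠ v in Z.M, f' v = ψ v := by
      filter_upwards [hn1, Z.ev_drop h2 n1, Z.ev_drop hc n1] with v h4 h5 h6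
      obtain ⟨i, hi, h7, h8⟩ := hfind n1 v h4
      rw [hlast i v h7 h8, h5 i hi, one_mul]
      have h9 : ∀ k ≤ i, ψ (v.drop k) = ψ v := by
        intro k
        induction k with
        | zero => intro _; simp
        | succ k ihk =>
          intro hk
          have h10 := h6 k (by omega)
          have h11 : φ (v.drop k) = 0 := by
            by_contra h12
            exact hs _ h12 (h7 k (by omega))
          rw [h11, List.tail_drop] at h10
          rw [← ihk (by omega)]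
          exact (sub_eq_zero.mp h10.symm).symm
      exact h9 i le_rfl
    filter_upwards [h3, Z.ev_tail h3, hc] with v h4 h5 h6
    rw [h4, h5, h6]
    ring
  · intro Z' hZ' h2
    obtain ⟨n1, hn1⟩ := Z'.hit (A := {v | w v ≠ 0}) hZ'
    have h3 : ∀ᶠ v in Z'.M, χ v = 0 := by
      filter_upwards [Z'.ev_drop h2 n] with v hv
      have : v ∉ {v | ∃ i : Fin (n + 1), φ (v.drop i.1) ≠ 0} := by
        rintro ⟨i, hi⟩
        exact hi (hv i.1 (by omega))
      simp only [χ, ind]
      rw [if_neg this]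
    have h4 : ∀ᶠ v in Z'.M, f' v = 0 := by
      filter_upwards [hn1, Z'.ev_drop h3 n1] with v h5 h6
      obtain ⟨i, hi, h7, h8⟩ := hfind n1 v h5
      rw [hlast i v h7 h8, h6 i hi, zero_mul]
    filter_upwards [h4, Z'.ev_tail h4, h2] with v h5 h6 h7
    rw [h5, h6, h7]
    ring

end

end Vale.Agent.P329.H839
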