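import Vale.Agent.P329.H839.Desc

/-!
The interface with the language side, coverage, rotation.
-/

open Filter

namespace Vale.Agent.P329.H839

variable {α : Type} {p : ℕ}

/-- The return stage. -/
def rc (h : List α → ZMod p) (ρ : ZMod p) : List α → ZMod p :=
  fun X => if N h X = ρ then h X else 0

/-- What the language side gives. -/
structure Lang (α : Type) (p : ℕ) (Cap : Set (List α → ZMod p)) where
  St : (List α → ZMod p) → Prop
  Un : (List α → ZMod p) → (List α → ZMod p) → Prop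
  L : (List α → ZMod p) → Set (List α → ZMod p)
  Mm : (List α → ZMod p) → ℕ → (List α → ZMod p) → Prop
  cap0 : (fun _ => (0 : ZMod p)) ∈ Cap
  capa : ∀ f ∈ Cap, ∀ g ∈ Cap, (fun v : List α => f v + g v) ∈ Cap
  nil : ∀ w, St w → w [] = 0
  alg : ∀ w, St w → Alg (L w)
  len : ∀ w, St w → ∀ n : ℕ, ind p {v : List α | n ≤ v.length} ∈ L w
  cap : ∀ w, St w → L w ⊆ Cap
  un_self : ∀ w, St w → Un w w
  un_L : ∀ w h, St w → Un w h → h ∈ L w
  un_sup : ∀ w h, St w → Un w h → ∀ v, h v ≠ 0 → w v ≠ 0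
  st : ∀ w h ρ, St w → Un w h → St (rc h ρ)
  nx_L : ∀ w h ρ, St w → Un w h → L w ⊆ L (rc h ρ)
  nx_N : ∀ w h ρ, St w → Un w h → N h ∈ L (rc h ρ)
  loc : ∀ w h ρ, St w → Un w h → ∀ f ∈ L (rc h ρ), ∃ n : ℕ, ∀ J : ℕ,
    ∃ Φ : ZMod p → List α → ZMod p, (∀ a, Φ a ∈ L w) ∧ ∀ v : List α,
      n ≤ ((Finset.range J).filter fun i => rc h ρ (v.drop i) ≠ 0).card → f v = Φ (N h v) v
  mem : ∀ w g, St w → g ∈ L w → (∀ v, g v ≠ 0 → w v ≠ 0) → ∃ n, Mm w n g
  split : ∀ w g n ρ, St w → g ∈ L w → (∀ v, g v ≠ 0 → w v ≠ 0) → Mm w (n + 1) g →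
    Mm (rc w ρ) n fun v => if N w v = ρ then g v else 0
  null : ∀ w g ρ, St w → g ∈ L w → (∀ v, g v ≠ 0 → w v ≠ 0) → Mm w 0 g →
    ∃ φ ∈ L (rc w ρ), ∃ η ∈ L (rc w ρ), (∀ v, φ v ≠ 0 → rc w ρ v ≠ 0) ∧
      Un (rc w ρ) (fun v => rc w ρ v + φ v) ∧ η [] = 0 ∧
      (∀ v, g v * (w v)⁻¹ * ((if N w v.tail = ρ then 1 else 0) - (if N w v = ρ then 1 else 0)) =
        φ v + η v - η v.tail) ∧
      ∀ (v : List α) (J : ℕ), (∃ i, 1 ≤ i ∧ i ≤ J ∧ rc w ρ (v.drop i) ≠ 0) →
        (∀ j ≤ J, g (v.drop j) = 0) → φ v = 0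
  marks : ∀ w f, St w → f ∈ L w → (∃ J : ℕ, ∀ v, f v ≠ 0 → ∃ i ≤ J, w (v.drop i) ≠ 0) →
    ∃ g ∈ L w, (∀ v, g v ≠ 0 → w v ≠ 0) ∧ ∃ G ∈ L w, ∀ v, N f v = N g v + G v
  til : ∀ w f, St w → f ∈ L w → ∃ f' ∈ L w, ∀ v, f' v = if w v ≠ 0 then f v else
    (if v = [] then 0 else f' v.tail)

theorem count_ge (P : ℕ → Prop) [DecidablePred P] (n0 : ℕ) : ∀ n : ℕ,
    (∀ j ≤ n * (n0 + 1), ∃ i ≤ n0, P (j + i)) →
    n ≤ ((Finset.range (n * (n0 + 1))).filter P).card := by
  intro n
  induction n with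
  | zero => intro _; exact Nat.zero_le _
  | succ n ih =>
    intro h
    have e : (n + 1) * (n0 + 1) = n * (n0 + 1) + (n0 + 1) := by ring
    have h1 := ih fun j hj => h j (by rw [e]; omega)
    obtain ⟨i, hi, hP⟩ := h (n * (n0 + 1)) (by rw [e]; omega)
    have h2 : insert (n * (n0 + 1) + i) ((Finset.range (n * (n0 + 1))).filter P) ⊆
        (Finset.range ((n + 1) * (n0 + 1))).filter P := by
      intro x hx
      rcases Finset.mem_insert.mp hx with rfl | hx
      · exact Finset.mem_filter.mpr ⟨Finset.mem_range.mpr (by rw [e]; omega), hP⟩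
      · obtain ⟨h3, h4⟩ := Finset.mem_filter.mp hx
        exact Finset.mem_filter.mpr ⟨Finset.mem_range.mpr (by
          have := Finset.mem_range.mp h3
          rw [e]; omega), h4⟩
    have h3 := Finset.card_le_card h2
    rw [Finset.card_insert_of_notMem (by
      intro hx
      have := Finset.mem_range.mp (Finset.mem_filter.mp hx).1
      omega)] at h3
    omega

theorem count_M (Z : Zone α) {w : List α → ZMod p} (h : ∃ᶠ v in Z.M, w v ≠ 0) (n : ℕ) :
    ∃ J : ℕ, ∀ᶠ v in Z.M, n ≤ ((Finset.range J).filter fun i => w (v.drop i) ≠ 0).card := by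
  obtain ⟨n0, hn0⟩ := Z.hit (A := {v | w v ≠ 0}) h
  refine ⟨n * (n0 + 1), ?_⟩
  filter_upwards [Z.ev_drop hn0 (n * (n0 + 1))] with v hv
  apply count_ge
  intro j hj
  obtain ⟨i, hi, h1⟩ := hv j hj
  refine ⟨i, hi, ?_⟩
  rw [List.drop_drop] at h1
  exact h1

theorem count_U (Z : Zone α) {w : List α → ZMod p} (h : ∃ᶠ v in Z.M, w v ≠ 0) (n : ℕ) :
    ∃ J : ℕ, ∀ᶠ v in (Z.U : Filter (List α)),
      n ≤ ((Finset.range J).filter fun i => w (v.drop i) ≠ 0).card := by
  have hne := Z.ne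
  obtain ⟨J, hJ⟩ := count_M Z h n
  obtain ⟨i0, hi0⟩ := Z.hitU (A := {v | n ≤ ((Finset.range J).filter fun i =>
    w (v.drop i) ≠ 0).card}) hJ.frequently
  refine ⟨i0 + J, ?_⟩
  filter_upwards [hi0] with v hv
  refine le_trans hv ?_
  apply Finset.card_le_card_of_injOn (fun i => i0 + i)
  · intro i hi
    have h1 := Finset.mem_filter.mp hi
    have h2 := Finset.mem_range.mp h1.1
    refine Finset.mem_filter.mpr ⟨Finset.mem_range.mpr (Nat.add_lt_add_left h2 i0), ?_⟩
    have h3 := h1.2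
    rw [List.drop_drop] at h3
    exact h3
  · intro i _ j _ hij
    exact Nat.add_left_cancel hij

section

variable [hp : Fact p.Prime] {Cap : Set (List α → ZMod p)} (S : Lang α p Cap)

theorem Lang.h_nil {w h : List α → ZMod p} (hw : S.St w) (hh : S.Un w h) : h [] = 0 := by
  by_contra hcon
  exact S.un_sup w h hw hh [] hcon (S.nil w hw)

/-- Functions of the next stage, seen from the old stage. -/
theorem Lang.gen {w h : List α → ZMod p} {ρ : ZMod p} (hw : S.St w) (hh : S.Un w h)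
    (Z : Zone α) (hZ : ∃ᶠ v in Z.M, rc h ρ v ≠ 0) {f : List α → ZMod p}
    (hf : f ∈ S.L (rc h ρ)) : ∃ a : ZMod p → List α → ZMod p, (∀ s, a s ∈ S.L w) ∧
      ∀ᶠ v in Z.M, f v = a (N h v) v := by
  obtain ⟨n, hn⟩ := S.loc w h ρ hw hh f hf
  obtain ⟨J, hJ⟩ := count_M Z hZ n
  obtain ⟨Φ, h1, h2⟩ := hn J
  exact ⟨Φ, h1, hJ.mono fun v hv => h2 v hv⟩

theorem Lang.fin1 {w h : List α → ZMod p} {ρ : ZMod p} (hw : S.St w) (hh : S.Un w h)
    (Z : Zone α) (hZ : ∀ Z', Eqv (S.L w) Z Z' → ∃ᶠ v in Z'.M, rc h ρ v ≠ 0) :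
    Fin1 (S.L w) (S.L (rc h ρ)) (N h) Z := by
  classical
  have : NeZero p := ⟨hp.out.ne_zero⟩
  intro Z' hZ' f hf
  have hL := S.alg w hw
  have hhL := S.un_L w h hw hh
  have h0 := S.h_nil hw hh
  obtain ⟨n, hn⟩ := S.loc w h ρ hw hh f hf
  obtain ⟨J, hJ⟩ := count_U Z' (hZ Z' hZ') n
  obtain ⟨Φ, h1, h2⟩ := hn J
  obtain ⟨s0, hs0⟩ := ult_val Z'.U (N h)
  let q : (Fin J → ZMod p) → Prop := fun F => n ≤ ((Finset.range J).filter fun i =>
    ∃ hi : i < J, F ⟨i, hi⟩ ≠ 0 ∧ s0 - ∑ k : Fin J, (if k.1 < i then F k else 0) = ρ).card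
  have hq : ∀ v : List α, N h v = s0 →
      (q (fun i => h (v.drop i.1)) ↔
        n ≤ ((Finset.range J).filter fun i => rc h ρ (v.drop i) ≠ 0).card) := by
    intro v hv
    have : ((Finset.range J).filter fun i => ∃ hi : i < J, h (v.drop i) ≠ 0 ∧
        s0 - ∑ k : Fin J, (if k.1 < i then h (v.drop k.1) else 0) = ρ) =
        (Finset.range J).filter fun i => rc h ρ (v.drop i) ≠ 0 := by
      apply Finset.filter_congr
      intro i hi
      have hiJ := Finset.mem_range.mp hi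
      have hsum : ∑ k : Fin J, (if k.1 < i then h (v.drop k.1) else 0) =
          ∑ k ∈ Finset.range i, h (v.drop k) := by
        rw [Finset.sum_fin_eq_sum_range, ← Finset.sum_filter_add_sum_filter_not
          (Finset.range J) (fun k => k < i)]
        have e1 : ∑ k ∈ (Finset.range J).filter (fun k => ¬ k < i),
            (if hk : k < J then (if k < i then h (v.drop k) else 0) else 0) = 0 := by
          apply Finset.sum_eq_zero
          intro k hk
          rw [Finset.mem_filter, Finset.mem_range] at hk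
          rw [dif_pos hk.1, if_neg hk.2]
        have e2 : (Finset.range J).filter (fun k => k < i) = Finset.range i := by
          ext k
          simp only [Finset.mem_filter, Finset.mem_range]
          omega
        rw [e1, e2, add_zero]
        apply Finset.sum_congr rfl
        intro k hk
        have := Finset.mem_range.mp hk
        rw [dif_pos (by omega), if_pos this]
      rw [hsum, ← hv, ← N_drop h h0 i v, rc]
      constructor
      · rintro ⟨_, h3, h4⟩
        rw [if_pos h4]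
        exact h3
      · intro h3
        by_cases h4 : N h (v.drop i) = ρ
        · rw [if_pos h4] at h3
          exact ⟨hiJ, h3, h4⟩
        · rw [if_neg h4] at h3
          exact absurd rfl h3
    simp only [q]
    rw [this]
  have hms : Ms (S.L w) fun v : List α => (fun i : Fin J => h (v.drop i.1)) :=
    Ms.pi hL (F := fun (i : Fin J) v => h (v.drop i.1)) fun i => (hL.ms hhL).drop hL i.1
  refine ⟨ind p {v | q fun i => h (v.drop i.1)}, hms {F | q F}, Φ s0, h1 s0, ?_, ?_⟩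
  · filter_upwards [hJ, hs0] with v h3 h4
    have h5 : v ∈ {v | q fun i => h (v.drop i.1)} := (hq v h4).mpr h3
    rw [ind, if_pos h5]
    exact one_ne_zero
  · intro s hs v hv hc
    have hss : s = s0 := by
      obtain ⟨u, h3, h4⟩ := (hs.and hs0).exists
      rw [← h3, h4]
    subst hss
    have h5 : v ∈ {v | q fun i => h (v.drop i.1)} := by
      by_contra hcon
      rw [ind, if_neg hcon] at hc
      exact hc rfl
    rw [h2 v ((hq v hv).mp h5), hv]

/-- frequent arrivals -/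
theorem Lang.arrive {w h : List α → ZMod p} (ρ : ZMod p) (hw : S.St w) (hh : S.Un w h)
    (Z : Zone α) (hc : ¬ Cob (S.L w) Z.M h) : ∃ᶠ v in Z.M, rc h ρ v ≠ 0 := by
  classical
  intro hcon
  have hL := S.alg w hw
  have hhL := S.un_L w h hw hh
  have h0 := S.h_nil hw hh
  have : NeZero p := ⟨hp.out.ne_zero⟩
  have h1 := full Z hL hhL (X := N h) (Eventually.of_forall fun v => N_tail h h0 v) hc
    (B := fun v => Finset.univ.filter fun s => s = ρ → h v = 0)
    ((hL.ms hhL).comp fun t => Finset.univ.filter fun s => s = ρ → t = 0) (by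
      filter_upwards [hcon] with v hv
      refine Finset.mem_filter.mpr ⟨Finset.mem_univ _, fun h2 => ?_⟩
      rw [rc, if_pos h2, not_not] at hv
      exact hv)
  apply hc
  refine ⟨fun _ => 0, hL.const 0, ?_⟩
  filter_upwards [h1] with v hv
  have h2 : ρ ∈ Finset.univ.filter fun s => s = ρ → h v = 0 := by
    rw [hv]; exact Finset.mem_univ _
  rw [sub_self]
  exact (Finset.mem_filter.mp h2).2 rfl

/-- rotation -/
theorem Lang.rot {w h : List α → ZMod p} {ρ : ZMod p} (hw : S.St w) (hh : S.Un w h)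
    (Z : Zone α) (hc : ¬ Cob (S.L w) Z.M h) (θ : ZMod p → List α → ZMod p)
    (hθ : ∀ s, θ s ∈ S.L w) {Θ : List α → ZMod p} (hΘ : ∀ᶠ v in Z.M, Θ v = θ (N h v) v)
    (hC : Cob (S.L (rc h ρ)) Z.M Θ) :
    ∃ b ∈ S.L w, ∀ᶠ v in Z.M,
      (haveI : NeZero p := ⟨hp.out.ne_zero⟩; ∑ s : ZMod p, θ s v) = b v - b v.tail := by
  classical
  have : NeZero p := ⟨hp.out.ne_zero⟩
  have hL := S.alg w hw
  have hhL := S.un_L w h hw hh
  have h0 := S.h_nil hw hh
  obtain ⟨ψ, hψ, h1⟩ := hC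
  obtain ⟨a, ha, h2⟩ := S.gen hw hh Z (S.arrive ρ hw hh Z hc) hψ
  have hB : Ms (S.L w) fun v : List α => (Finset.univ.filter fun s : ZMod p =>
      θ s v = a s v - a (s - h v) v.tail) := by
    have e1 : Ms (S.L w) fun v (s : ZMod p) => θ s v := Ms.pi hL fun s => hL.ms (hθ s)
    have e2 : Ms (S.L w) fun v (s : ZMod p) => a s v := Ms.pi hL fun s => hL.ms (ha s)
    have e3 := Ms.prod hL (hL.ms hhL) (Ms.prod hL e1 (Ms.prod hL e2 (e2.tl hL)))
    exact e3.comp fun F => Finset.univ.filter fun s : ZMod p =>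
      F.2.1 s = F.2.2.1 s - F.2.2.2 (s - F.1)
  have h3 := full Z hL hhL (X := N h) (Eventually.of_forall fun v => N_tail h h0 v) hc hB (by
    filter_upwards [hΘ, h1, h2, Z.ev_tail h2] with v e1 e2 e3 e4
    refine Finset.mem_filter.mpr ⟨Finset.mem_univ _, ?_⟩
    rw [← e1, e2, e3, e4, N_tail h h0])
  refine ⟨fun v => ∑ s : ZMod p, a s v, hL.sum _ fun s _ => ha s, ?_⟩
  filter_upwards [h3] with v hv
  have h4 : ∀ s : ZMod p, θ s v = a s v - a (s - h v) v.tail := by
    intro s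
    have h5 : s ∈ Finset.univ.filter fun s : ZMod p => θ s v = a s v - a (s - h v) v.tail := by
      rw [hv]; exact Finset.mem_univ _
    exact (Finset.mem_filter.mp h5).2
  rw [Finset.sum_congr rfl fun s _ => h4 s, Finset.sum_sub_distrib]
  congr 1
  exact (Equiv.subRight (h v)).sum_comp fun s => a s v.tail

theorem Lang.gd_next {w h : List α → ZMod p} {ρ : ZMod p} (hw : S.St w) (hh : S.Un w h)
    (Z : Zone α) (hc : ¬ Cob (S.L w) Z.M h) : ¬ Cob (S.L (rc h ρ)) Z.M (rc h ρ) := by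
  intro hC
  have : NeZero p := ⟨hp.out.ne_zero⟩
  have hL := S.alg w hw
  have hhL := S.un_L w h hw hh
  obtain ⟨b, hb, h1⟩ := S.rot hw hh Z hc (fun s v => if s = ρ then h v else 0) (fun s => by
    by_cases hs : s = ρ
    · simpa [hs] using hhL
    · simpa [hs] using hL.const 0) (Θ := rc h ρ) (Eventually.of_forall fun v => rfl) hC
  refine hc ⟨b, hb, ?_⟩
  filter_upwards [h1] with v hv
  rw [← hv, Finset.sum_ite_eq']
  simp

theorem Lang.gd_phi {w g φ η : List α → ZMod p} {ρ : ZMod p} (hw : S.St w)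
    (hg : g ∈ S.L w)
    (hη : η ∈ S.L (rc w ρ))
    (hid : ∀ v, g v * (w v)⁻¹ * ((if N w v.tail = ρ then 1 else 0) - (if N w v = ρ then 1 else 0)) =
        φ v + η v - η v.tail)
    (Z : Zone α) (hc : ¬ Cob (S.L w) Z.M w) :
    ¬ Cob (S.L (rc w ρ)) Z.M (fun v => rc w ρ v + φ v) := by
  classical
  rintro ⟨ψ, hψ, h1⟩
  have : NeZero p := ⟨hp.out.ne_zero⟩
  have hh := S.un_self w hw
  have hL := S.alg w hw
  have hL' := S.alg _ (S.st w w ρ hw hh)
  have hwL := S.un_L w w hw hh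
  have h0 := S.nil w hw
  have hu : (fun v => g v * (w v)⁻¹) ∈ S.L w := by
    have := Ms.prod hL (hL.ms hg) (hL.ms hwL)
    exact (this.comp fun F => F.1 * F.2⁻¹).fn hL
  let θ : ZMod p → List α → ZMod p := fun s v => (if s = ρ then w v else 0) +
    g v * (w v)⁻¹ * ((if s - w v = ρ then 1 else 0) - (if s = ρ then 1 else 0))
  obtain ⟨b, hb, h2⟩ := S.rot hw hh Z hc θ (fun s => by
      have e := Ms.prod hL (hL.ms hu) (hL.ms hwL)
      exact (e.comp fun F => (if s = ρ then F.2 else 0) +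
        F.1 * ((if s - F.2 = ρ then 1 else 0) - (if s = ρ then 1 else 0))).fn hL)
    (Θ := fun v => rc w ρ v + φ v + η v - η v.tail) (Eventually.of_forall fun v => by
      have e := hid v
      have : rc w ρ v + φ v + η v - η v.tail = rc w ρ v + (φ v + η v - η v.tail) := by ring
      simp only [θ]
      rw [this, ← e, N_tail w h0]
      rfl)
    ⟨fun v => ψ v + η v, hL'.add hψ hη, by
      filter_upwards [h1] with v hv
      rw [hv]; ring⟩
  refine hc ⟨b, hb, ?_⟩
  filter_upwards [h2] with v hv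
  rw [← hv]
  simp only [θ]
  rw [Finset.sum_add_distrib, ← Finset.mul_sum, Finset.sum_sub_distrib, Finset.sum_ite_eq',
    Finset.sum_ite_eq']
  have : ∑ s : ZMod p, (if s - w v = ρ then (1 : ZMod p) else 0) = 1 := by
    rw [Finset.sum_eq_single (ρ + w v)]
    · simp
    · intro b _ hb
      rw [if_neg]
      intro h
      exact hb (by rw [← h]; ring)
    · intro h; exact absurd (Finset.mem_univ _) h
  rw [this]
  simp

end

end Vale.Agent.P329.H839
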