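import Vale.Agent.P329.H839.Ind

/-!
The main induction.
-/

open Filter

namespace Vale.Agent.P329.H839

variable {α : Type} {p : ℕ}

open Classical in
/-- number of zones with a property -/
noncomputable def cnt (P : Zone α → Prop) : List (Zone α) → ℕ
  | [] => 0
  | Z :: Zs => (if P Z then 1 else 0) + cnt P Zs

theorem cnt_le {ρ : Zone α → Zone α → Prop} {P Q : Zone α → Prop} {Zs Zs' : List (Zone α)}
    (h : List.Forall₂ ρ Zs Zs') (hPQ : ∀ Z Z', Z' ∈ Zs' → ρ Z Z' → Q Z' → P Z) :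
    cnt Q Zs' ≤ cnt P Zs := by
  classical
  induction h with
  | nil => exact le_rfl
  | cons h1 h2 ih =>
    rename_i Z Z' Zs Zs'
    have h3 := ih fun Y Y' hY => hPQ Y Y' (List.mem_cons_of_mem _ hY)
    simp only [cnt]
    by_cases h4 : Q Z'
    · rw [if_pos h4, if_pos (hPQ Z Z' List.mem_cons_self h1 h4)]
      omega
    · rw [if_neg h4]
      split_ifs <;> omega

theorem cnt_lt {ρ : Zone α → Zone α → Prop} {P Q : Zone α → Prop} {Zs Zs' : List (Zone α)}
    (h : List.Forall₂ ρ Zs Zs') (hPQ : ∀ Z Z', Z' ∈ Zs' → ρ Z Z' → Q Z' → P Z)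
    {Y' : Zone α} (hY : Y' ∈ Zs') (hQ : ¬ Q Y') (hP : ∀ Z, ρ Z Y' → P Z) :
    cnt Q Zs' < cnt P Zs := by
  classical
  induction h with
  | nil => simp at hY
  | cons h1 h2 ih =>
    rename_i Z Z' Zs Zs'
    have hPQ' : ∀ Y Y', Y' ∈ Zs' → ρ Y Y' → Q Y' → P Y :=
      fun Y Y' hY => hPQ Y Y' (List.mem_cons_of_mem _ hY)
    simp only [cnt]
    rcases List.mem_cons.mp hY with rfl | hY
    · rw [if_neg hQ, if_pos (hP Z h1)]
      have := cnt_le h2 hPQ'
      omega
    · have h3 := ih hPQ' hY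
      by_cases h4 : Q Z'
      · rw [if_pos h4, if_pos (hPQ Z Z' List.mem_cons_self h1 h4)]
        omega
      · rw [if_neg h4]
        split_ifs <;> omega

theorem forall2_mem {ρ : Zone α → Zone α → Prop} {Zs Zs' : List (Zone α)}
    (h : List.Forall₂ ρ Zs Zs') {Z' : Zone α} (hZ : Z' ∈ Zs') : ∃ Z ∈ Zs, ρ Z Z' := by
  induction h with
  | nil => simp at hZ
  | cons h1 _ ih =>
    rcases List.mem_cons.mp hZ with rfl | h3
    · exact ⟨_, List.mem_cons_self, h1⟩
    · obtain ⟨Z, h4, h5⟩ := ih h3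
      exact ⟨Z, List.mem_cons_of_mem _ h4, h5⟩

section

variable [hp : Fact p.Prime] {Cap : Set (List α → ZMod p)} (S : Lang α p Cap)

/-- zones which are neither flat nor good -/
def Lang.bad (w g : List α → ZMod p) (Z : Zone α) : Prop :=
  (¬ ∀ᶠ v in Z.M, g v = 0) ∧ Cob (S.L w) Z.M w

theorem Lang.null_fl {w g φ : List α → ZMod p} {ρ : ZMod p}
    (h9 : ∀ (v : List α) (J : ℕ), (∃ i, 1 ≤ i ∧ i ≤ J ∧ rc w ρ (v.drop i) ≠ 0) →
        (∀ j ≤ J, g (v.drop j) = 0) → φ v = 0)
    (Z : Zone α) (hZ : ∃ᶠ v in Z.M, rc w ρ v ≠ 0) (hg : ∀ᶠ v in Z.M, g v = 0) :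
    ∀ᶠ v in Z.M, φ v = 0 := by
  obtain ⟨n, hn⟩ := Z.hit (A := {v | rc w ρ v ≠ 0}) hZ
  filter_upwards [Z.ev_tail hn, Z.ev_drop hg (n + 1)] with v h1 h2
  obtain ⟨i, hi, h3⟩ := h1
  refine h9 v (n + 1) ⟨i + 1, by omega, by omega, ?_⟩ h2
  have : v.tail.drop i = v.drop (i + 1) := by simp
  rw [← this]
  exact h3

theorem Lang.stepB (m : ℕ)
    (hA : ∀ w, S.St w → ∀ Zs : List (Zone α), Zs.length = m → (∀ Z ∈ Zs, S.Cv w Z) →
      ∀ G ∈ S.L w, R Cap (S.L w) Zs G) :
    ∀ (nb n : ℕ) (w : List α → ZMod p), S.St w → ∀ Zs : List (Zone α), Zs.length = m →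
      (∀ Z ∈ Zs, S.Cv w Z) → ∀ g ∈ S.L w, (∀ v, g v ≠ 0 → w v ≠ 0) → S.Mm w n g →
      cnt (S.bad w g) Zs ≤ nb → R Cap (S.L w) Zs (N g) := by
  classical
  have : NeZero p := ⟨hp.out.ne_zero⟩
  intro nb
  induction nb using Nat.strong_induction_on with
  | _ nb ihb =>
  intro n
  induction n with
  | succ n ihn =>
    intro w hw Zs hm hZ g hg hgs hM hb
    have hL := S.alg w hw
    have hun := S.un_self w hw
    have h0 := S.nil w hw
    have key : ∀ ρ ∈ (Finset.univ : Finset (ZMod p)),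
        R Cap (S.L w) Zs (N fun v => if N w v = ρ then g v else 0) := by
      intro ρ _
      refine S.desc hw hun (ρ := ρ) Zs (fun Z hZ' Z' h' => hZ Z hZ' Z' h' [ρ]) _
        fun Zs' h' => ?_
      have hw' := S.st w w ρ hw hun
      have hL' := S.alg _ hw'
      refine ihn (rc w ρ) hw' Zs' (by rw [← h'.length_eq]; exact hm) ?_ _ ?_ ?_
        (S.split w g n ρ hw hg hgs hM) ?_
      · intro Z' hZ'
        obtain ⟨Z, h1, h2⟩ := forall2_mem h' hZ'
        exact S.cv_next hw (hZ Z h1) h2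
      · have e := Ms.prod hL' (hL'.ms (S.nx_N w w ρ hw hun)) (hL'.ms (S.nx_L w w ρ hw hun hg))
        exact (e.comp fun F => if F.1 = ρ then F.2 else 0).fn hL'
      · intro v hv
        by_cases h1 : N w v = ρ
        · rw [if_pos h1] at hv
          rw [rc, if_pos h1]
          exact hgs v hv
        · rw [if_neg h1] at hv
          exact absurd rfl hv
      · refine le_trans (cnt_le h' ?_) hb
        rintro Z Z' hZm' hZZ ⟨h1, h2⟩
        refine ⟨fun h3 => h1 ?_, ?_⟩
        · filter_upwards [(hZZ.2 g hg).mp h3] with v hv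
          rw [hv, ite_self]
        · by_contra h3
          exact S.gd_next hw hun Z' (fun h4 => h3 (cob_congr hL (Eqv.symm hZZ).2
            (S.un_L w w hw hun) h4)) h2
    refine R.ext (fun v => ?_) (R.sum S.cap0 S.capa hL Finset.univ key)
    rw [← N_sum]
    refine N_congr (fun u _ => ?_) v
    rw [Finset.sum_ite_eq]
    simp
  | zero =>
    intro w hw Zs hm hZ g hg hgs hM hb
    have hL := S.alg w hw
    have hun := S.un_self w hw
    have h0 := S.nil w hw
    have hnull := fun ρ => S.null w g ρ hw hg hgs hM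
    choose φ hφ η hη hφs hφU hη0 hid h9 using hnull
    have hsum : ∀ v, N g v = ∑ ρ : ZMod p, (-ρ) * (N (φ ρ) v + η ρ v) := by
      intro v
      have h1 : ∀ ρ v, N (φ ρ) v + η ρ v = N (fun v => g v * (w v)⁻¹ *
          ((if N w v.tail = ρ then 1 else 0) - (if N w v = ρ then 1 else 0))) v := by
        intro ρ v
        induction v with
        | nil => simp [N, hη0]
        | cons x v ih =>
          have h2 := hid ρ (x :: v)
          rw [N, N, ← ih]
          beta_reduce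
          rw [h2]
          simp only [List.tail_cons]
          ring
      have h2 : ∀ v, ∑ ρ : ZMod p, (-ρ) * (g v * (w v)⁻¹ *
          ((if N w v.tail = ρ then 1 else 0) - (if N w v = ρ then 1 else 0))) = g v := by
        intro v
        have e1 : ∀ a : ZMod p, ∑ ρ : ZMod p, (-ρ) * (g v * (w v)⁻¹ * (if a = ρ then 1 else 0)) =
            - a * (g v * (w v)⁻¹) := by
          intro a
          rw [Finset.sum_eq_single a]
          · simp
          · intro b _ hb
            rw [if_neg (Ne.symm hb)]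
            ring
          · intro h; exact absurd (Finset.mem_univ _) h
        have e2 : ∑ ρ : ZMod p, (-ρ) * (g v * (w v)⁻¹ *
            ((if N w v.tail = ρ then 1 else 0) - (if N w v = ρ then 1 else 0))) =
            ∑ ρ : ZMod p, (-ρ) * (g v * (w v)⁻¹ * (if N w v.tail = ρ then 1 else 0)) -
            ∑ ρ : ZMod p, (-ρ) * (g v * (w v)⁻¹ * (if N w v = ρ then 1 else 0)) := by
          rw [← Finset.sum_sub_distrib]
          apply Finset.sum_congr rfl
          intro ρ _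
          ring
        rw [e2, e1, e1, N_tail w h0]
        by_cases h3 : w v = 0
        · have : g v = 0 := by
            by_contra h4
            exact hgs v h4 h3
          rw [this]; ring
        · field_simp
          ring
      have h3 : N g v = N (fun v => ∑ ρ : ZMod p, (-ρ) * (g v * (w v)⁻¹ *
          ((if N w v.tail = ρ then 1 else 0) - (if N w v = ρ then 1 else 0)))) v :=
        N_congr (fun u _ => (h2 u).symm) v
      rw [h3, N_sum]
      apply Finset.sum_congr rfl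
      intro ρ _
      rw [h1, N_smul]
    have key : ∀ ρ ∈ (Finset.univ : Finset (ZMod p)),
        R Cap (S.L w) Zs (fun v => (-ρ) * (N (φ ρ) v + η ρ v)) := by
      intro ρ _
      apply R.smul S.cap0 S.capa hL
      have hw' := S.st w w ρ hw hun
      have hL' := S.alg _ hw'
      refine S.desc hw hun (ρ := ρ) Zs (fun Z hZ' Z' h' => hZ Z hZ' Z' h' [ρ]) _
        fun Zs' h' => ?_
      have hm' : Zs'.length = m := by rw [← h'.length_eq]; exact hm
      have hcv : ∀ Z' ∈ Zs', S.Cv (rc w ρ) Z' := by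
        intro Z' hZ'
        obtain ⟨Z, h1, h2⟩ := forall2_mem h' hZ'
        exact S.cv_next hw (hZ Z h1) h2
      refine R.add S.capa hL' ?_ (hA _ hw' Zs' hm' hcv _ (hη ρ))
      -- facts about corresponding zones
      have hfr : ∀ Z' ∈ Zs', ∃ᶠ v in Z'.M, rc w ρ v ≠ 0 := fun Z' hZ' =>
        hcv Z' hZ' Z' (Eqv.refl _ _) []
      have f1 : ∀ Z Z', Z' ∈ Zs' → Eqv (S.L w) Z Z' → (∀ᶠ v in Z.M, g v = 0) →
          ∀ᶠ v in Z'.M, φ ρ v = 0 := fun Z Z' hZ' hZZ h1 =>
        Lang.null_fl (h9 ρ) Z' (hfr Z' hZ') ((hZZ.2 g hg).mp h1)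
      have f2 : ∀ Z Z', Eqv (S.L w) Z Z' → ¬ Cob (S.L w) Z.M w →
          ¬ Cob (S.L w) Z'.M w := fun Z Z' hZZ h1 h2 =>
        h1 (cob_congr hL hZZ.symm.2 (S.un_L w w hw hun) h2)
      have f3 : ∀ Z Z', Eqv (S.L w) Z Z' → ¬ Cob (S.L w) Z.M w →
          ¬ Cob (S.L (rc w ρ)) Z'.M (rc w ρ) := fun Z Z' hZZ h1 =>
        S.gd_next hw hun Z' (f2 Z Z' hZZ h1)
      have f4 : ∀ Z Z', Eqv (S.L w) Z Z' → ¬ Cob (S.L w) Z.M w →
          ¬ Cob (S.L (rc w ρ)) Z'.M (fun v => rc w ρ v + φ ρ v) := fun Z Z' hZZ h1 =>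
        S.gd_phi hw hg (hη ρ) (hid ρ) Z' (f2 Z Z' hZZ h1)
      have hw'L := S.un_L _ _ hw' (S.un_self _ hw')
      by_cases hall : ∀ Z' ∈ Zs', (∀ᶠ v in Z'.M, φ ρ v = 0) ∨
          ¬ Cob (S.L (rc w ρ)) Z'.M (fun v => rc w ρ v + φ ρ v)
      · -- all zones are fine
        have r1 : R Cap (S.L (rc w ρ)) Zs' (N fun v => rc w ρ v + φ ρ v) := by
          refine S.unitWalk hA hw' (hφU ρ) Zs' hm' ?_
          intro Z' hZ' Z'' h'' rs
          rcases hall Z' hZ' with h1 | h1
          · have h2 := (h''.2 _ (hφ ρ)).mp h1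
            have e0 : rc w ρ [] = 0 := rc_nil h0 ρ
            have e1 : φ ρ [] = 0 := by
              by_contra h3
              exact hφs ρ [] h3 e0
            obtain ⟨rs', h3⟩ := itw_congr Z'' rs (fun v => rc w ρ v + φ ρ v) (rc w ρ)
              (by beta_reduce; rw [e0, e1, add_zero]) e0
              (by filter_upwards [h2] with v hv; rw [hv, add_zero])
            refine ((hcv Z' hZ' Z'' h'' rs').and_eventually h3).mono fun v hv => ?_
            rw [hv.2]; exact hv.1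
          · have hU := hφU ρ
            exact S.itw_gd Z'' rs _ _ hw' hU (fun h4 => h1 (cob_congr hL' h''.symm.2
              (S.un_L _ _ hw' hU) h4))
        have r2 : R Cap (S.L (rc w ρ)) Zs' (N (rc w ρ)) :=
          S.unitWalk hA hw' (S.un_self _ hw') Zs' hm' fun Z' hZ' Z'' h'' rs =>
            hcv Z' hZ' Z'' h'' rs
        refine R.ext (fun v => ?_) (R.add S.capa hL' r1 (R.smul S.cap0 S.capa hL' r2 (-1)))
        rw [N_add]
        ring
      · -- one zone is not fine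
        push Not at hall
        obtain ⟨Y', hY', h1, h2⟩ := hall
        have hP : ∀ Z, Eqv (S.L w) Z Y' → S.bad w g Z := by
          intro Z hZZ
          refine ⟨fun h3 => ?_, ?_⟩
          · have := f1 Z Y' hY' hZZ h3
            exact absurd (this.mono fun v hv => by simpa using hv) (by simpa using h1)
          · by_contra h3
            exact f4 Z Y' hZZ h3 h2
        by_cases h3 : Cob (S.L (rc w ρ)) Y'.M (rc w ρ)
        · -- gauge
          obtain ⟨ψ1, hψ1, h4⟩ := h2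
          obtain ⟨ψ2, hψ2, h5⟩ := h3
          have h6 : ∀ᶠ v in Y'.M, φ ρ v = (ψ1 v - ψ2 v) - (ψ1 v.tail - ψ2 v.tail) := by
            filter_upwards [h4, h5] with v h7 h8
            linear_combination h7 - h8
          obtain ⟨φ', hφ', hs', G, hG, h7, h8, h10⟩ := S.gauge hw' (hφ ρ) (hφs ρ)
            (hL'.sub hψ1 hψ2) Y' (hfr Y' hY') h6 (by simpa using h1)
          obtain ⟨n', hn'⟩ := S.mem _ φ' hw' hφ' hs'
          have hlt : cnt (S.bad (rc w ρ) φ') Zs' < nb := by
            refine lt_of_lt_of_le (cnt_lt h' ?_ hY' ?_ hP) hb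
            · rintro Z Z' hZm' hZZ ⟨h11, h12⟩
              refine ⟨fun h13 => h11 ?_, ?_⟩
              · exact h10 Z' (hfr Z' hZm') (f1 Z Z' hZm' hZZ h13)
              · by_contra h13
                exact f3 Z Z' hZZ h13 h12
            · exact fun h11 => h11.1 h8
          have r1 := ihb _ hlt n' _ hw' Zs' hm' hcv φ' hφ' hs' hn' le_rfl
          exact R.ext (fun v => (h7 v).symm) (R.add S.capa hL' r1 (hA _ hw' Zs' hm' hcv G hG))
        · -- the zone is good at the next stage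
          obtain ⟨n', hn'⟩ := S.mem _ (φ ρ) hw' (hφ ρ) (hφs ρ)
          have hlt : cnt (S.bad (rc w ρ) (φ ρ)) Zs' < nb := by
            refine lt_of_lt_of_le (cnt_lt h' ?_ hY' ?_ hP) hb
            · rintro Z Z' hZm' hZZ ⟨h11, h12⟩
              refine ⟨fun h13 => h11 ?_, ?_⟩
              · exact f1 Z Z' hZm' hZZ h13
              · by_contra h13
                exact f3 Z Z' hZZ h13 h12
            · exact fun h11 => h3 h11.2
          exact ihb _ hlt n' _ hw' Zs' hm' hcv (φ ρ) (hφ ρ) (hφs ρ) hn' le_rfl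
    exact R.ext (fun v => (hsum v).symm) (R.sum S.cap0 S.capa hL Finset.univ key)

/-- The core: any number of marks. -/
theorem Lang.core (m : ℕ) : ∀ w, S.St w → ∀ Zs : List (Zone α), Zs.length = m →
    (∀ Z ∈ Zs, S.Cv w Z) → (∀ G ∈ S.L w, R Cap (S.L w) Zs G) ∧
      (∀ g ∈ S.L w, (∀ v, g v ≠ 0 → w v ≠ 0) → R Cap (S.L w) Zs (N g)) := by
  have hB : ∀ m, (∀ w, S.St w → ∀ Zs : List (Zone α), Zs.length = m → (∀ Z ∈ Zs, S.Cv w Z) →
      ∀ G ∈ S.L w, R Cap (S.L w) Zs G) → ∀ w, S.St w → ∀ Zs : List (Zone α), Zs.length = m →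
      (∀ Z ∈ Zs, S.Cv w Z) → (∀ G ∈ S.L w, R Cap (S.L w) Zs G) ∧
      (∀ g ∈ S.L w, (∀ v, g v ≠ 0 → w v ≠ 0) → R Cap (S.L w) Zs (N g)) := by
    intro m hA w hw Zs hm hZ
    refine ⟨hA w hw Zs hm hZ, fun g hg hgs => ?_⟩
    obtain ⟨n, hn⟩ := S.mem w g hw hg hgs
    exact S.stepB m hA _ n w hw Zs hm hZ g hg hgs hn le_rfl
  induction m with
  | zero =>
    apply hB
    intro w hw Zs hm _ G hG
    rw [List.length_eq_zero_iff.mp hm]
    exact S.cap w hw hG
  | succ m ih => exact hB (m + 1) (S.stepA m ih)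

end

end Vale.Agent.P329.H839
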